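import Vale.Agent.Lib.P254.Sq.Defs

/-!
P254, bodies with homothetic rectangular sections: the proof

Target: for a continuous concave profile `P ≥ 0` on `[0,1]`, not identically zero, and `k > 0`,
the body `{x ∈ ℝ³ | 0 ≤ x₀ ≤ 1, |x₁| ≤ P x₀, |x₂| ≤ k P x₀}` has isotropic constant strictly
below that of the tetrahedra.
-/

open MeasureTheory Set

namespace Vale.Agent.Lib.P254.Sq

open Vale.Agent.Lib.P254 Vale.Agent.Lib.P254.Ramp

/-! ### EXT : the extension by zero -/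

section EXT

theorem ext_of_mem (P : ℝ → ℝ) {x : ℝ} (hx : x ∈ Icc (0:ℝ) 1) : ext P x = P x := by
  unfold ext
  exact Set.indicator_of_mem hx P

theorem ext_of_not_mem (P : ℝ → ℝ) {x : ℝ} (hx : x ∉ Icc (0:ℝ) 1) : ext P x = 0 := by
  unfold ext
  exact Set.indicator_of_notMem hx P

theorem ext_nonneg {P : ℝ → ℝ} (hP0 : ∀ t ∈ Icc (0:ℝ) 1, 0 ≤ P t) (x : ℝ) : 0 ≤ ext P x := by
  by_cases hx : x ∈ Icc (0:ℝ) 1
  · rw [ext_of_mem P hx]
    exact hP0 x hx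
  · rw [ext_of_not_mem P hx]

theorem mem_of_ext_pos {P : ℝ → ℝ} {x : ℝ} (hx : 0 < ext P x) : x ∈ Icc (0:ℝ) 1 := by
  by_contra h
  rw [ext_of_not_mem P h] at hx
  exact lt_irrefl 0 hx

theorem ext_measurable {P : ℝ → ℝ} (hPc : ContinuousOn P (Icc 0 1)) : Measurable (ext P) := by
  have h : Measurable ((Icc (0:ℝ) 1).piecewise P (0 : ℝ → ℝ)) :=
    hPc.measurable_piecewise continuous_zero.continuousOn measurableSet_Icc
  rw [Set.piecewise_eq_indicator] at h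
  exact h

theorem ext_bdd {P : ℝ → ℝ} (hPc : ContinuousOn P (Icc 0 1)) : ∃ M : ℝ, ∀ x, |ext P x| ≤ M := by
  obtain ⟨C, hC⟩ := isCompact_Icc.exists_bound_of_continuousOn hPc
  refine ⟨max C 0, fun x => ?_⟩
  by_cases hx : x ∈ Icc (0:ℝ) 1
  · rw [ext_of_mem P hx]
    have h := hC x hx
    rw [Real.norm_eq_abs] at h
    exact h.trans (le_max_left _ _)
  · rw [ext_of_not_mem P hx, abs_zero]
    exact le_max_right _ _

theorem ext_combo {P : ℝ → ℝ} (hP : ConcaveOn ℝ (Icc 0 1) P) {x y s : ℝ} (hs0 : 0 ≤ s)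
    (hs1 : s ≤ 1) (hx : 0 < ext P x) (hy : 0 < ext P y) :
    (1 - s) * ext P x + s * ext P y ≤ ext P ((1 - s) * x + s * y) := by
  have hxm := mem_of_ext_pos hx
  have hym := mem_of_ext_pos hy
  have hs1' : 0 ≤ 1 - s := sub_nonneg.mpr hs1
  have hsum : (1 - s) + s = 1 := by ring
  have hzm : (1 - s) * x + s * y ∈ Icc (0:ℝ) 1 := by
    have h := (convex_Icc (0:ℝ) 1) hxm hym hs1' hs0 hsum
    simpa [smul_eq_mul] using h
  rw [ext_of_mem P hxm, ext_of_mem P hym, ext_of_mem P hzm]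
  have h := hP.2 hxm hym hs1' hs0 hsum
  simpa [smul_eq_mul] using h

end EXT

/-! ### KER : the integrand of the correlation function -/

section KER

theorem ker_measurable {P : ℝ → ℝ} (hPc : ContinuousOn P (Icc 0 1)) (d : ℝ) :
    Measurable fun x : ℝ => (ext P x) ^ 2 * (ext P (x + d)) ^ 2 := by
  have h1 : Measurable fun x : ℝ => (ext P x) ^ 2 := (ext_measurable hPc).pow_const 2
  have h2 : Measurable fun x : ℝ => (ext P (x + d)) ^ 2 :=
    ((ext_measurable hPc).comp (measurable_id.add_const d)).pow_const 2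
  exact h1.mul h2

theorem ker_bdd {P : ℝ → ℝ} (hPc : ContinuousOn P (Icc 0 1)) (d : ℝ) :
    ∃ M : ℝ, ∀ x, (ext P x) ^ 2 * (ext P (x + d)) ^ 2 ≤ M := by
  obtain ⟨M, hM⟩ := ext_bdd hPc
  refine ⟨M ^ 2 * M ^ 2, fun x => ?_⟩
  have h1 : (ext P x) ^ 2 ≤ M ^ 2 := by
    have h := hM x
    rw [← sq_abs (ext P x)]
    exact pow_le_pow_left₀ (abs_nonneg _) h 2
  have h2 : (ext P (x + d)) ^ 2 ≤ M ^ 2 := by
    have h := hM (x + d)
    rw [← sq_abs (ext P (x + d))]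
    exact pow_le_pow_left₀ (abs_nonneg _) h 2
  exact mul_le_mul h1 h2 (sq_nonneg _) (sq_nonneg _)

theorem ker_integrable {P : ℝ → ℝ} (hPc : ContinuousOn P (Icc 0 1)) (d : ℝ) :
    Integrable fun x : ℝ => (ext P x) ^ 2 * (ext P (x + d)) ^ 2 := by
  obtain ⟨M, hM⟩ := ker_bdd hPc d
  have hg : Integrable ((Icc (0:ℝ) 1).indicator (fun _ : ℝ => M)) := by
    rw [integrable_indicator_iff measurableSet_Icc]
    exact integrableOn_const (by simp)
  refine hg.mono' (ker_measurable hPc d).aestronglyMeasurable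
    (Filter.Eventually.of_forall fun x => ?_)
  rw [Real.norm_eq_abs, abs_of_nonneg (mul_nonneg (sq_nonneg _) (sq_nonneg _))]
  by_cases hx : x ∈ Icc (0:ℝ) 1
  · rw [Set.indicator_of_mem hx]
    exact hM x
  · rw [Set.indicator_of_notMem hx, ext_of_not_mem P hx]
    simp

end KER

/-! ### REPA : elementary properties of the correlation function -/

section REPA

theorem corr_nonneg (P : ℝ → ℝ) (d : ℝ) : 0 ≤ corr P d := by
  unfold corr
  exact integral_nonneg (fun x => by positivity)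

theorem corr_zero (P : ℝ → ℝ) : corr P 0 = ∫ t in (0:ℝ)..1, (P t) ^ 4 := by
  unfold corr
  simp only [add_zero]
  have h : (fun x : ℝ => (ext P x) ^ 2 * (ext P x) ^ 2)
      = (Icc (0:ℝ) 1).indicator (fun t => P t ^ 4) := by
    funext x
    by_cases hx : x ∈ Icc (0:ℝ) 1
    · rw [ext_of_mem P hx, indicator_of_mem hx]
      ring
    · rw [ext_of_not_mem P hx, indicator_of_notMem hx]
      ring
  rw [h, integral_indicator measurableSet_Icc, integral_Icc_eq_integral_Ioc,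
    intervalIntegral.integral_of_le zero_le_one]

theorem corr_neg (P : ℝ → ℝ) (d : ℝ) : corr P (-d) = corr P d := by
  unfold corr
  have h := integral_add_right_eq_self (μ := (volume : Measure ℝ))
    (fun x : ℝ => (ext P (x - d)) ^ 2 * (ext P x) ^ 2) d
  have e1 : (fun x : ℝ => (ext P (x + d - d)) ^ 2 * (ext P (x + d)) ^ 2)
      = fun x : ℝ => (ext P x) ^ 2 * (ext P (x + d)) ^ 2 := by
    funext x
    rw [add_sub_cancel_right]
  have e2 : (fun x : ℝ => (ext P x) ^ 2 * (ext P (x + -d)) ^ 2)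
      = fun x : ℝ => (ext P (x - d)) ^ 2 * (ext P x) ^ 2 := by
    funext x
    rw [← sub_eq_add_neg, mul_comm]
  rw [e2, ← h]
  exact congrArg _ e1

theorem corr_eq_zero (P : ℝ → ℝ) {d : ℝ} (hd : 1 < |d|) : corr P d = 0 := by
  unfold corr
  have h : (fun x : ℝ => (ext P x) ^ 2 * (ext P (x + d)) ^ 2) = fun _ => (0:ℝ) := by
    funext x
    by_cases hx : x ∈ Icc (0:ℝ) 1
    · by_cases hy : x + d ∈ Icc (0:ℝ) 1
      · exfalso
        have h1 : |d| ≤ 1 := by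
          rw [abs_le]
          constructor
          · linarith [hx.2, hy.1]
          · linarith [hx.1, hy.2]
        linarith
      · rw [ext_of_not_mem P hy]
        ring
    · rw [ext_of_not_mem P hx]
      ring
  rw [h, integral_zero]

theorem corr_zero_pos {P : ℝ → ℝ} (hPc : ContinuousOn P (Icc 0 1))
    (hP0 : ∀ t ∈ Icc (0:ℝ) 1, 0 ≤ P t) (hPne : ∃ t ∈ Icc (0:ℝ) 1, 0 < P t) : 0 < corr P 0 := by
  rw [corr_zero]
  obtain ⟨t0, ht0, hpos⟩ := hPne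
  have hc4 : ContinuousOn (fun t => P t ^ 4) (Icc (0:ℝ) 1) := hPc.pow 4
  refine intervalIntegral.integral_pos zero_lt_one hc4 (fun x hx => ?_) ⟨t0, ht0, ?_⟩
  · exact pow_nonneg (hP0 x (Ioc_subset_Icc_self hx)) 4
  · exact pow_pos hpos 4

end REPA

/-! ### REPB : the integral of the correlation function -/

section REPB

theorem sq_repb_f_eq (P : ℝ → ℝ) :
    (fun x : ℝ => (ext P x) ^ 2) = (Icc (0:ℝ) 1).indicator (fun t => (P t) ^ 2) := by
  funext x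
  unfold ext
  by_cases hx : x ∈ Icc (0:ℝ) 1
  · rw [Set.indicator_of_mem hx, Set.indicator_of_mem hx]
  · rw [Set.indicator_of_notMem hx, Set.indicator_of_notMem hx]
    norm_num

theorem sq_repb_f_int {P : ℝ → ℝ} (hPc : ContinuousOn P (Icc 0 1)) :
    Integrable (fun x : ℝ => (ext P x) ^ 2) := by
  rw [sq_repb_f_eq, integrable_indicator_iff measurableSet_Icc]
  exact (hPc.pow 2).integrableOn_compact isCompact_Icc

theorem sq_repb_f_integral (P : ℝ → ℝ) :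
    ∫ x, (ext P x) ^ 2 = ∫ t in (0:ℝ)..1, (P t) ^ 2 := by
  rw [sq_repb_f_eq, integral_indicator measurableSet_Icc, integral_Icc_eq_integral_Ioc,
    intervalIntegral.integral_of_le zero_le_one]

theorem sq_repb_prod_int {P : ℝ → ℝ} (hPc : ContinuousOn P (Icc 0 1)) :
    Integrable (fun p : ℝ × ℝ => (ext P p.1) ^ 2 * (ext P (p.1 + p.2)) ^ 2)
      ((volume : Measure ℝ).prod (volume : Measure ℝ)) := by
  have hf := sq_repb_f_int hPc
  have h1 : Integrable (fun z : ℝ × ℝ => (ext P z.1) ^ 2 * (ext P z.2) ^ 2)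
      ((volume : Measure ℝ).prod (volume : Measure ℝ)) := hf.mul_prod hf
  have hmp : MeasurePreserving (fun z : ℝ × ℝ => (z.1, z.1 + z.2))
      ((volume : Measure ℝ).prod (volume : Measure ℝ))
      ((volume : Measure ℝ).prod (volume : Measure ℝ)) :=
    measurePreserving_prod_add volume volume
  exact (hmp.integrable_comp h1.aestronglyMeasurable).2 h1

theorem corr_integrable {P : ℝ → ℝ} (hPc : ContinuousOn P (Icc 0 1)) : Integrable (corr P) := by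
  have hF := sq_repb_prod_int hPc
  have h2 := hF.integral_prod_right
  have e : corr P = fun d => ∫ x, (ext P x) ^ 2 * (ext P (x + d)) ^ 2 := by
    funext d
    rfl
  rw [e]
  exact h2

theorem corr_integral {P : ℝ → ℝ} (hPc : ContinuousOn P (Icc 0 1)) :
    ∫ d, corr P d = (∫ t in (0:ℝ)..1, (P t) ^ 2) ^ 2 := by
  have hF := sq_repb_prod_int hPc
  have h1 : ∫ d, corr P d = ∫ d, ∫ x, (ext P x) ^ 2 * (ext P (x + d)) ^ 2 := rfl
  have hswap : ∫ d, ∫ x, (ext P x) ^ 2 * (ext P (x + d)) ^ 2 =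
      ∫ x, ∫ d, (ext P x) ^ 2 * (ext P (x + d)) ^ 2 :=
    (integral_integral_swap (f := fun x d : ℝ => (ext P x) ^ 2 * (ext P (x + d)) ^ 2) hF).symm
  have hinner : ∀ x : ℝ, ∫ d, (ext P x) ^ 2 * (ext P (x + d)) ^ 2 =
      (ext P x) ^ 2 * ∫ y, (ext P y) ^ 2 := by
    intro x
    rw [integral_const_mul]
    congr 1
    exact integral_add_left_eq_self (fun y : ℝ => (ext P y) ^ 2) x
  rw [h1, hswap]
  simp_rw [hinner]
  rw [integral_mul_const, sq_repb_f_integral, sq]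

end REPB

/-! ### REPC : the second moment of the correlation function -/

section REPC

/-- A bounded measurable function vanishing outside a set of finite measure is integrable. -/
theorem sq_repc_integrable {α : Type*} [MeasurableSpace α] {μ : Measure α} (s : Set α)
    (hs : MeasurableSet s) (hμ : μ s ≠ ⊤) (h : α → ℝ) (hm : Measurable h) (C : ℝ)
    (hb : ∀ x, |h x| ≤ C) (hz : ∀ x, x ∉ s → h x = 0) : Integrable h μ := by
  have e : h = s.indicator h := by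
    funext x
    by_cases hx : x ∈ s
    · rw [Set.indicator_of_mem hx]
    · rw [Set.indicator_of_notMem hx, hz x hx]
  rw [e, integrable_indicator_iff hs]
  exact Measure.integrableOn_of_bounded hμ hm.aestronglyMeasurable
    (Filter.Eventually.of_forall (fun x => by rw [Real.norm_eq_abs]; exact hb x))

/-- Weighted moments of the squared extension as interval integrals. -/
theorem sq_repc_mom (P : ℝ → ℝ) (w : ℝ → ℝ) :
    ∫ y, w y * (ext P y) ^ 2 = ∫ t in (0:ℝ)..1, w t * (P t) ^ 2 := by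
  have e : (fun y => w y * (ext P y) ^ 2)
      = (Icc (0:ℝ) 1).indicator (fun t => w t * (P t) ^ 2) := by
    funext y
    by_cases hy : y ∈ Icc (0:ℝ) 1
    · rw [Set.indicator_of_mem hy, ext_of_mem P hy]
    · rw [Set.indicator_of_notMem hy, ext_of_not_mem P hy]
      ring
  rw [e, integral_indicator measurableSet_Icc, integral_Icc_eq_integral_Ioc,
    ← intervalIntegral.integral_of_le zero_le_one]

theorem corr_moment {P : ℝ → ℝ} (hPc : ContinuousOn P (Icc 0 1)) :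
    ∫ d, d ^ 2 * corr P d =
      2 * ((∫ t in (0:ℝ)..1, (P t) ^ 2) * (∫ t in (0:ℝ)..1, t ^ 2 * (P t) ^ 2)
        - (∫ t in (0:ℝ)..1, t * (P t) ^ 2) ^ 2) := by
  obtain ⟨M, hM⟩ := ext_bdd hPc
  have hMeas := ext_measurable hPc
  obtain ⟨f, hf⟩ : ∃ f : ℝ → ℝ, ∀ x, f x = (ext P x) ^ 2 := ⟨_, fun _ => rfl⟩
  have hfm : Measurable f := by
    have e : f = fun x => (ext P x) ^ 2 := funext hf
    rw [e]
    exact hMeas.pow_const 2
  have hf0 : ∀ x, 0 ≤ f x := fun x => by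
    rw [hf]
    positivity
  have hfB : ∀ x, f x ≤ M ^ 2 := fun x => by
    rw [hf]
    have h2 : (ext P x) ^ 2 = |ext P x| ^ 2 := (sq_abs _).symm
    rw [h2]
    exact pow_le_pow_left₀ (abs_nonneg _) (hM x) 2
  have hfz : ∀ x, x ∉ Icc (0:ℝ) 1 → f x = 0 := fun x hx => by
    rw [hf, ext_of_not_mem P hx]
    ring
  have hB0 : 0 ≤ M ^ 2 := sq_nonneg M
  -- the three moments
  have hm0 : ∫ y, f y = ∫ t in (0:ℝ)..1, (P t) ^ 2 := by
    have h := sq_repc_mom P (fun _ => 1)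
    simp only [one_mul] at h
    rw [← h]
    congr 1
    funext y
    exact hf y
  have hm1 : ∫ y, y * f y = ∫ t in (0:ℝ)..1, t * (P t) ^ 2 := by
    rw [← sq_repc_mom P (fun y => y)]
    congr 1
    funext y
    rw [hf]
  have hm2 : ∫ y, y ^ 2 * f y = ∫ t in (0:ℝ)..1, t ^ 2 * (P t) ^ 2 := by
    rw [← sq_repc_mom P (fun y => y ^ 2)]
    congr 1
    funext y
    rw [hf]
  -- integrability of the integrands of the moments
  have hbd : ∀ (c y : ℝ), (y ∈ Icc (0:ℝ) 1 → |c| ≤ 1) → |c * f y| ≤ M ^ 2 := by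
    intro c y hc
    by_cases hy : y ∈ Icc (0:ℝ) 1
    · rw [abs_mul, abs_of_nonneg (hf0 y)]
      calc |c| * f y ≤ 1 * M ^ 2 := mul_le_mul (hc hy) (hfB y) (hf0 y) zero_le_one
        _ = M ^ 2 := one_mul _
    · rw [hfz y hy, mul_zero, abs_zero]
      exact hB0
  have hi0 : Integrable f :=
    sq_repc_integrable (Icc (0:ℝ) 1) measurableSet_Icc measure_Icc_lt_top.ne f hfm (M ^ 2)
      (fun x => by
        rw [abs_of_nonneg (hf0 x)]
        exact hfB x) hfz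
  have hi1 : Integrable (fun y => y * f y) :=
    sq_repc_integrable (Icc (0:ℝ) 1) measurableSet_Icc measure_Icc_lt_top.ne _
      (measurable_id.mul hfm) (M ^ 2)
      (fun y => hbd y y (fun hy => by
        rw [abs_of_nonneg hy.1]
        exact hy.2))
      (fun y hy => by rw [hfz y hy, mul_zero])
  have hi2 : Integrable (fun y => y ^ 2 * f y) :=
    sq_repc_integrable (Icc (0:ℝ) 1) measurableSet_Icc measure_Icc_lt_top.ne _
      ((measurable_id.pow_const 2).mul hfm) (M ^ 2)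
      (fun y => hbd (y ^ 2) y (fun hy => by
        rw [abs_of_nonneg (sq_nonneg y)]
        exact pow_le_one₀ hy.1 hy.2))
      (fun y hy => by rw [hfz y hy, mul_zero])
  -- the integrand on the plane
  obtain ⟨F, hF⟩ : ∃ F : ℝ → ℝ → ℝ, ∀ x d, F x d = d ^ 2 * (f x * f (x + d)) :=
    ⟨_, fun _ _ => rfl⟩
  have hFint : Integrable (Function.uncurry F) (volume.prod volume) := by
    refine sq_repc_integrable (Icc (0:ℝ) 1 ×ˢ Icc (-1:ℝ) 1)
      (measurableSet_Icc.prod measurableSet_Icc) ?_ _ ?_ (M ^ 2 * M ^ 2) ?_ ?_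
    · rw [Measure.prod_prod]
      exact ENNReal.mul_ne_top measure_Icc_lt_top.ne measure_Icc_lt_top.ne
    · have e : Function.uncurry F = fun p : ℝ × ℝ => p.2 ^ 2 * (f p.1 * f (p.1 + p.2)) := by
        funext p
        exact hF p.1 p.2
      rw [e]
      exact (measurable_snd.pow_const 2).mul
        ((hfm.comp measurable_fst).mul (hfm.comp (measurable_fst.add measurable_snd)))
    · rintro ⟨x, d⟩
      show |F x d| ≤ M ^ 2 * M ^ 2
      rw [hF]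
      by_cases hx : x ∈ Icc (0:ℝ) 1
      · by_cases hxd : x + d ∈ Icc (0:ℝ) 1
        · have hd1 : d ^ 2 ≤ 1 := by
            have h1 : -1 ≤ d := by linarith [hx.2, hxd.1]
            have h2 : d ≤ 1 := by linarith [hx.1, hxd.2]
            nlinarith
          rw [abs_of_nonneg (mul_nonneg (sq_nonneg d) (mul_nonneg (hf0 x) (hf0 _)))]
          calc d ^ 2 * (f x * f (x + d)) ≤ 1 * (M ^ 2 * M ^ 2) :=
                mul_le_mul hd1 (mul_le_mul (hfB x) (hfB _) (hf0 _) hB0)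
                  (mul_nonneg (hf0 x) (hf0 _)) zero_le_one
            _ = M ^ 2 * M ^ 2 := one_mul _
        · rw [hfz _ hxd, mul_zero, mul_zero, abs_zero]
          exact mul_nonneg hB0 hB0
      · rw [hfz _ hx, zero_mul, mul_zero, abs_zero]
        exact mul_nonneg hB0 hB0
    · rintro ⟨x, d⟩ hp
      show F x d = 0
      rw [hF]
      by_cases hx : x ∈ Icc (0:ℝ) 1
      · by_cases hxd : x + d ∈ Icc (0:ℝ) 1
        · exfalso
          apply hp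
          exact ⟨hx, ⟨by linarith [hx.2, hxd.1], by linarith [hx.1, hxd.2]⟩⟩
        · rw [hfz _ hxd]
          ring
      · rw [hfz _ hx]
        ring
  have step1 : ∫ d, d ^ 2 * corr P d = ∫ d, ∫ x, F x d := by
    congr 1
    funext d
    show d ^ 2 * (∫ x, (ext P x) ^ 2 * (ext P (x + d)) ^ 2) = ∫ x, F x d
    rw [← integral_const_mul]
    congr 1
    funext x
    rw [hF, hf, hf]
  have step2 : ∫ d, ∫ x, F x d = ∫ x, ∫ d, F x d := (integral_integral_swap hFint).symm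
  have step3 : ∀ x, ∫ d, F x d
      = f x * ((∫ y, y ^ 2 * f y) - 2 * x * (∫ y, y * f y) + x ^ 2 * ∫ y, f y) := by
    intro x
    have e1 : (fun d => F x d) = fun d => f x * ((x + d - x) ^ 2 * f (x + d)) := by
      funext d
      rw [hF]
      ring
    have e3 : ∫ d, (x + d - x) ^ 2 * f (x + d) = ∫ y, (y - x) ^ 2 * f y :=
      integral_add_left_eq_self (fun y => (y - x) ^ 2 * f y) x
    have e2 : (fun y => (y - x) ^ 2 * f y)
        = fun y => (y ^ 2 * f y - (2 * x) * (y * f y)) + x ^ 2 * f y := by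
      funext y
      ring
    have hA : Integrable (fun y => y ^ 2 * f y - (2 * x) * (y * f y)) :=
      hi2.sub (hi1.const_mul _)
    have hBq : Integrable (fun y => x ^ 2 * f y) := hi0.const_mul _
    rw [e1, integral_const_mul, e3, e2, integral_add hA hBq,
      integral_sub hi2 (hi1.const_mul _), integral_const_mul, integral_const_mul]
  have step4 : (fun x => ∫ d, F x d)
      = fun x => ((∫ y, y ^ 2 * f y) * f x - (2 * (∫ y, y * f y)) * (x * f x))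
          + (∫ y, f y) * (x ^ 2 * f x) := by
    funext x
    rw [step3 x]
    ring
  have hA' : Integrable
      (fun x => (∫ y, y ^ 2 * f y) * f x - (2 * (∫ y, y * f y)) * (x * f x)) :=
    (hi0.const_mul _).sub (hi1.const_mul _)
  have hB' : Integrable (fun x => (∫ y, f y) * (x ^ 2 * f x)) := hi2.const_mul _
  rw [step1, step2, step4, integral_add hA' hB',
    integral_sub (hi0.const_mul _) (hi1.const_mul _), integral_const_mul,
    integral_const_mul, integral_const_mul, hm0, hm1, hm2]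
  ring

end REPC

/-! ### REPD : the same integrals over `[0,1]` -/

section REPD

/-- An integrable even function vanishing outside `[-1,1]`: its integral is twice the integral
over `[0,1]`. -/
theorem sq_repd_even_half (g : ℝ → ℝ) (hgi : Integrable g) (heven : ∀ d, g (-d) = g d)
    (hsupp : ∀ d, 1 < |d| → g d = 0) : ∫ d, g d = 2 * ∫ d in (0:ℝ)..1, g d := by
  have h1 : ∫ d, g d = ∫ d in Icc (-1:ℝ) 1, g d := by
    symm
    apply setIntegral_eq_integral_of_forall_compl_eq_zero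
    intro d hd
    apply hsupp
    by_contra hcon
    exact hd (abs_le.mp (not_lt.mp hcon))
  have h2 : ∫ d in Icc (-1:ℝ) 1, g d = ∫ d in (-1:ℝ)..1, g d := by
    rw [intervalIntegral.integral_of_le (by norm_num : (-1:ℝ) ≤ 1)]
    exact setIntegral_congr_set Ioc_ae_eq_Icc.symm
  have hi : ∀ a b : ℝ, IntervalIntegrable g volume a b := fun a b => hgi.intervalIntegrable
  have h3 : ∫ d in (-1:ℝ)..0, g d = ∫ d in (0:ℝ)..1, g d := by
    have h := intervalIntegral.integral_comp_neg (a := (0:ℝ)) (b := 1) g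
    rw [neg_zero] at h
    rw [← h]
    apply intervalIntegral.integral_congr
    intro d _
    exact heven d
  rw [h1, h2, ← intervalIntegral.integral_add_adjacent_intervals (hi (-1) 0) (hi 0 1), h3]
  ring

theorem corr_half_integral {P : ℝ → ℝ} (hPc : ContinuousOn P (Icc 0 1)) :
    2 * ∫ d in (0:ℝ)..1, corr P d = (∫ t in (0:ℝ)..1, (P t) ^ 2) ^ 2 := by
  rw [← sq_repd_even_half (corr P) (corr_integrable hPc) (corr_neg P)
    (fun d hd => corr_eq_zero P hd)]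
  exact corr_integral hPc

theorem corr_half_moment {P : ℝ → ℝ} (hPc : ContinuousOn P (Icc 0 1)) :
    ∫ d in (0:ℝ)..1, d ^ 2 * corr P d =
      (∫ t in (0:ℝ)..1, (P t) ^ 2) * (∫ t in (0:ℝ)..1, t ^ 2 * (P t) ^ 2)
        - (∫ t in (0:ℝ)..1, t * (P t) ^ 2) ^ 2 := by
  have hint : Integrable (fun d : ℝ => d ^ 2 * corr P d) := by
    refine (corr_integrable hPc).mono
      ((continuous_pow 2).aestronglyMeasurable.mul (corr_integrable hPc).aestronglyMeasurable)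
      (Filter.Eventually.of_forall (fun d => ?_))
    by_cases hd : 1 < |d|
    · rw [corr_eq_zero P hd, mul_zero]
    · have hle : |d| ≤ 1 := not_lt.mp hd
      have hsq : d ^ 2 ≤ 1 := by
        rw [← sq_abs]
        exact pow_le_one₀ (abs_nonneg d) hle
      rw [norm_mul, Real.norm_eq_abs, abs_of_nonneg (sq_nonneg d)]
      calc d ^ 2 * ‖corr P d‖ ≤ 1 * ‖corr P d‖ :=
            mul_le_mul_of_nonneg_right hsq (norm_nonneg _)
        _ = ‖corr P d‖ := one_mul _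
  have h := sq_repd_even_half (fun d : ℝ => d ^ 2 * corr P d) hint
    (fun d => by
      show (-d) ^ 2 * corr P (-d) = d ^ 2 * corr P d
      rw [neg_sq, corr_neg])
    (fun d hd => by
      show d ^ 2 * corr P d = 0
      rw [corr_eq_zero P hd, mul_zero])
  have hm := corr_moment hPc
  rw [h] at hm
  linarith

end REPD

/-! ### BMA : pointwise inequality and convex level sets -/

section BMA

theorem sq_bma_aux (a1 b1 a2 b2 u v : ℝ) (ha1 : 0 < a1) (hb1 : 0 < b1) (ha2 : 0 < a2)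
    (hb2 : 0 < b2) (hu : 0 ≤ u) (hv : 0 ≤ v) (huv : u + v = 1) (h12 : a1 * b1 ≤ a2 * b2) :
    a1 * b1 ≤ (u * a1 + v * a2) * (u * b1 + v * b2) := by
  have hp1 : 0 < a1 * b1 := mul_pos ha1 hb1
  have hX : 0 < a1 * b2 + a2 * b1 := by positivity
  have hcross : 2 * (a1 * b1) ≤ a1 * b2 + a2 * b1 := by
    by_contra hcon
    have hlt : a1 * b2 + a2 * b1 < 2 * (a1 * b1) := not_le.mp hcon
    nlinarith [mul_pos (sub_pos.mpr hlt)
      (by linarith : (0:ℝ) < 2 * (a1 * b1) + (a1 * b2 + a2 * b1)),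
      sq_nonneg (a1 * b2 - a2 * b1), mul_le_mul_of_nonneg_left h12 hp1.le]
  have hu' : u = 1 - v := by linarith
  subst hu'
  nlinarith [mul_nonneg (mul_nonneg hu hv) (sub_nonneg.mpr hcross),
    mul_nonneg (mul_nonneg hv hv) (sub_nonneg.mpr h12)]

theorem corr_pointwise {P : ℝ → ℝ} (hP : ConcaveOn ℝ (Icc 0 1) P) (d : ℝ) {s : ℝ}
    (hs0 : 0 ≤ s) (hs1 : s ≤ 1) (x y : ℝ) (hx : 0 < ext P x) (hy1 : 0 < ext P y)
    (hy2 : 0 < ext P (y + d)) :
    ((1 - s) * ext P x + s * Real.sqrt (ext P y * ext P (y + d))) ^ 2 ≤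
      ext P ((1 - s) * x + s * y) * ext P ((1 - s) * x + s * y + s * d) := by
  have h1 := ext_combo hP hs0 hs1 hx hy1
  have h2 := ext_combo hP hs0 hs1 hx hy2
  have ez : (1 - s) * x + s * (y + d) = (1 - s) * x + s * y + s * d := by ring
  rw [ez] at h2
  obtain ⟨q, hqdef⟩ : ∃ q : ℝ, q = Real.sqrt (ext P y * ext P (y + d)) := ⟨_, rfl⟩
  rw [← hqdef]
  have hq0 : 0 ≤ q := by
    rw [hqdef]
    exact Real.sqrt_nonneg _
  have hq2 : q ^ 2 = ext P y * ext P (y + d) := by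
    rw [hqdef]
    exact Real.sq_sqrt (mul_pos hy1 hy2).le
  have hq : 2 * q ≤ ext P y + ext P (y + d) := by
    by_contra hcon
    have hlt : ext P y + ext P (y + d) < 2 * q := not_le.mp hcon
    nlinarith [mul_pos (sub_pos.mpr hlt)
      (by linarith : (0:ℝ) < 2 * q + (ext P y + ext P (y + d))),
      sq_nonneg (ext P y - ext P (y + d))]
  have hs1' : 0 ≤ 1 - s := sub_nonneg.mpr hs1
  have hL1 : 0 ≤ (1 - s) * ext P x + s * ext P y :=
    add_nonneg (mul_nonneg hs1' hx.le) (mul_nonneg hs0 hy1.le)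
  have hL2 : 0 ≤ (1 - s) * ext P x + s * ext P (y + d) :=
    add_nonneg (mul_nonneg hs1' hx.le) (mul_nonneg hs0 hy2.le)
  have key : ((1 - s) * ext P x + s * ext P y) * ((1 - s) * ext P x + s * ext P (y + d))
      - ((1 - s) * ext P x + s * q) ^ 2
      = ((1 - s) * ext P x * s) * (ext P y + ext P (y + d) - 2 * q) := by
    linear_combination (-(s ^ 2)) * hq2
  have hnn : 0 ≤ ((1 - s) * ext P x * s) * (ext P y + ext P (y + d) - 2 * q) :=
    mul_nonneg (mul_nonneg (mul_nonneg hs1' hx.le) hs0) (sub_nonneg.mpr hq)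
  calc ((1 - s) * ext P x + s * q) ^ 2
      ≤ ((1 - s) * ext P x + s * ext P y) * ((1 - s) * ext P x + s * ext P (y + d)) := by
        linarith
    _ ≤ ext P ((1 - s) * x + s * y) * ext P ((1 - s) * x + s * y + s * d) :=
        mul_le_mul h1 h2 hL2 (le_trans hL1 h1)

theorem corr_level_convex {P : ℝ → ℝ} (hP : ConcaveOn ℝ (Icc 0 1) P)
    (hP0 : ∀ t ∈ Icc (0:ℝ) 1, 0 ≤ P t) (d c : ℝ) (hc : 0 < c) :
    Convex ℝ {x : ℝ | c ≤ (ext P x) ^ 2 * (ext P (x + d)) ^ 2} := by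
  intro x hx y hy u v hu hv huv
  have hx' : c ≤ (ext P x) ^ 2 * (ext P (x + d)) ^ 2 := hx
  have hy' : c ≤ (ext P y) ^ 2 * (ext P (y + d)) ^ 2 := hy
  show c ≤ (ext P (u • x + v • y)) ^ 2 * (ext P (u • x + v • y + d)) ^ 2
  simp only [smul_eq_mul]
  have ha1 : 0 < ext P x := by
    rcases (ext_nonneg hP0 x).eq_or_lt with h | h
    · rw [← h] at hx'
      norm_num at hx'
      linarith
    · exact h
  have hb1 : 0 < ext P (x + d) := by
    rcases (ext_nonneg hP0 (x + d)).eq_or_lt with h | h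
    · rw [← h] at hx'
      norm_num at hx'
      linarith
    · exact h
  have ha2 : 0 < ext P y := by
    rcases (ext_nonneg hP0 y).eq_or_lt with h | h
    · rw [← h] at hy'
      norm_num at hy'
      linarith
    · exact h
  have hb2 : 0 < ext P (y + d) := by
    rcases (ext_nonneg hP0 (y + d)).eq_or_lt with h | h
    · rw [← h] at hy'
      norm_num at hy'
      linarith
    · exact h
  have hu1 : 1 - v = u := by linarith
  have hv1 : v ≤ 1 := by linarith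
  have e1 := ext_combo hP hv hv1 ha1 ha2
  have e2 := ext_combo hP hv hv1 hb1 hb2
  rw [hu1] at e1 e2
  have ez : u * (x + d) + v * (y + d) = u * x + v * y + d := by
    linear_combination d * huv
  rw [ez] at e2
  have hA0 : 0 ≤ u * ext P x + v * ext P y :=
    add_nonneg (mul_nonneg hu ha1.le) (mul_nonneg hv ha2.le)
  have hB0 : 0 ≤ u * ext P (x + d) + v * ext P (y + d) :=
    add_nonneg (mul_nonneg hu hb1.le) (mul_nonneg hv hb2.le)
  have hAB : (u * ext P x + v * ext P y) * (u * ext P (x + d) + v * ext P (y + d)) ≤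
      ext P (u * x + v * y) * ext P (u * x + v * y + d) :=
    mul_le_mul e1 e2 hB0 (le_trans hA0 e1)
  rcases le_total (ext P x * ext P (x + d)) (ext P y * ext P (y + d)) with h12 | h21
  · have hm := sq_bma_aux _ _ _ _ u v ha1 hb1 ha2 hb2 hu hv huv h12
    have hPi : ext P x * ext P (x + d) ≤ ext P (u * x + v * y) * ext P (u * x + v * y + d) :=
      hm.trans hAB
    calc c ≤ (ext P x) ^ 2 * (ext P (x + d)) ^ 2 := hx'
      _ = (ext P x * ext P (x + d)) ^ 2 := by ring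
      _ ≤ (ext P (u * x + v * y) * ext P (u * x + v * y + d)) ^ 2 :=
          pow_le_pow_left₀ (mul_pos ha1 hb1).le hPi 2
      _ = (ext P (u * x + v * y)) ^ 2 * (ext P (u * x + v * y + d)) ^ 2 := by ring
  · have hm := sq_bma_aux _ _ _ _ v u ha2 hb2 ha1 hb1 hv hu (by linarith) h21
    have hPi : ext P y * ext P (y + d) ≤ ext P (u * x + v * y) * ext P (u * x + v * y + d) := by
      refine le_trans (le_of_le_of_eq hm ?_) hAB
      ring
    calc c ≤ (ext P y) ^ 2 * (ext P (y + d)) ^ 2 := hy'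
      _ = (ext P y * ext P (y + d)) ^ 2 := by ring
      _ ≤ (ext P (u * x + v * y) * ext P (u * x + v * y + d)) ^ 2 :=
          pow_le_pow_left₀ (mul_pos ha2 hb2).le hPi 2
      _ = (ext P (u * x + v * y)) ^ 2 * (ext P (u * x + v * y + d)) ^ 2 := by ring

end BMA

/-! ### BMB : the lower bound by the fifth power -/

section BMB

theorem sq_bmb_ker_eq (P : ℝ → ℝ) {d : ℝ} (hd0 : 0 ≤ d) (x : ℝ) :
    (ext P x) ^ 2 * (ext P (x + d)) ^ 2 =
      (Icc (0:ℝ) (1 - d)).indicator (fun x => (P x) ^ 2 * (P (x + d)) ^ 2) x := by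
  by_cases hx : x ∈ Icc (0:ℝ) (1 - d)
  · rw [Set.indicator_of_mem hx]
    have h1 : x ∈ Icc (0:ℝ) 1 := ⟨hx.1, by linarith [hx.2]⟩
    have h2 : x + d ∈ Icc (0:ℝ) 1 := ⟨by linarith [hx.1], by linarith [hx.2]⟩
    rw [ext_of_mem P h1, ext_of_mem P h2]
  · rw [Set.indicator_of_notMem hx]
    by_cases h0 : x < 0
    · have h1 : x ∉ Icc (0:ℝ) 1 := fun h => by linarith [h.1]
      rw [ext_of_not_mem P h1]
      ring
    · have h2 : x + d ∉ Icc (0:ℝ) 1 := by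
        intro h
        apply hx
        exact ⟨not_lt.mp h0, by linarith [h.2]⟩
      rw [ext_of_not_mem P h2]
      ring

theorem sq_bmb_corr_eq (P : ℝ → ℝ) {d : ℝ} (hd0 : 0 ≤ d) (hd1 : d < 1) :
    corr P d =
      (1 - d) * ∫ y in (0:ℝ)..1, (P ((1 - d) * y)) ^ 2 * (P ((1 - d) * y + d)) ^ 2 := by
  have hc : (0:ℝ) ≤ 1 - d := by linarith
  have h1 : corr P d = ∫ x in (0:ℝ)..(1 - d), (P x) ^ 2 * (P (x + d)) ^ 2 := by
    unfold corr
    have e : (fun x : ℝ => (ext P x) ^ 2 * (ext P (x + d)) ^ 2) =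
        (Icc (0:ℝ) (1 - d)).indicator (fun x => (P x) ^ 2 * (P (x + d)) ^ 2) := by
      funext x
      exact sq_bmb_ker_eq P hd0 x
    rw [e, integral_indicator measurableSet_Icc, integral_Icc_eq_integral_Ioc,
      ← intervalIntegral.integral_of_le hc]
  have h2 := intervalIntegral.mul_integral_comp_mul_left
    (f := fun x : ℝ => (P x) ^ 2 * (P (x + d)) ^ 2) (a := 0) (b := 1) (1 - d)
  rw [mul_zero, mul_one] at h2
  rw [h1]
  exact h2.symm

theorem corr_lower {P : ℝ → ℝ} (hP : ConcaveOn ℝ (Icc 0 1) P) (hPc : ContinuousOn P (Icc 0 1))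
    (hP0 : ∀ t ∈ Icc (0:ℝ) 1, 0 ≤ P t) {d : ℝ} (hd0 : 0 ≤ d) (hd1 : d ≤ 1) :
    (1 - d) ^ 5 * corr P 0 ≤ corr P d := by
  rcases hd1.lt_or_eq with hlt | heq
  swap
  · rw [heq]
    have hnn := corr_nonneg P 1
    simpa using hnn
  have hc : 0 < 1 - d := by linarith
  rw [sq_bmb_corr_eq P hd0 hlt, corr_zero]
  have h0 : (0:ℝ) ∈ Icc (0:ℝ) 1 := ⟨le_refl _, zero_le_one⟩
  have h1 : (1:ℝ) ∈ Icc (0:ℝ) 1 := ⟨zero_le_one, le_refl _⟩
  have hpt : ∀ y ∈ Icc (0:ℝ) 1, (1 - d) ^ 4 * (P y) ^ 4 ≤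
      (P ((1 - d) * y)) ^ 2 * (P ((1 - d) * y + d)) ^ 2 := by
    intro y hy
    have hPy := hP0 y hy
    have hcP : 0 ≤ (1 - d) * P y := mul_nonneg hc.le hPy
    have e1 := hP.2 hy h0 hc.le hd0 (by ring : (1 - d) + d = 1)
    have e2 := hP.2 hy h1 hc.le hd0 (by ring : (1 - d) + d = 1)
    simp only [smul_eq_mul, mul_zero, add_zero] at e1
    simp only [smul_eq_mul, mul_one] at e2
    have a1 : (1 - d) * P y ≤ P ((1 - d) * y) := by
      linarith [mul_nonneg hd0 (hP0 0 h0)]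
    have a2 : (1 - d) * P y ≤ P ((1 - d) * y + d) := by
      linarith [mul_nonneg hd0 (hP0 1 h1)]
    have b1 : ((1 - d) * P y) ^ 2 ≤ (P ((1 - d) * y)) ^ 2 := pow_le_pow_left₀ hcP a1 2
    have b2 : ((1 - d) * P y) ^ 2 ≤ (P ((1 - d) * y + d)) ^ 2 := pow_le_pow_left₀ hcP a2 2
    calc (1 - d) ^ 4 * (P y) ^ 4 = ((1 - d) * P y) ^ 2 * ((1 - d) * P y) ^ 2 := by ring
      _ ≤ (P ((1 - d) * y)) ^ 2 * (P ((1 - d) * y + d)) ^ 2 :=
          mul_le_mul b1 b2 (sq_nonneg _) (sq_nonneg _)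
  have hI1 : IntervalIntegrable (fun y => (1 - d) ^ 4 * (P y) ^ 4) volume 0 1 := by
    apply ContinuousOn.intervalIntegrable
    rw [uIcc_of_le zero_le_one]
    exact continuousOn_const.mul (hPc.pow 4)
  have hI2 : IntervalIntegrable
      (fun y => (P ((1 - d) * y)) ^ 2 * (P ((1 - d) * y + d)) ^ 2) volume 0 1 := by
    apply ContinuousOn.intervalIntegrable
    rw [uIcc_of_le zero_le_one]
    have m1 : MapsTo (fun y : ℝ => (1 - d) * y) (Icc 0 1) (Icc 0 1) := by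
      intro y hy
      exact ⟨mul_nonneg hc.le hy.1, mul_le_one₀ (by linarith) hy.1 hy.2⟩
    have m2 : MapsTo (fun y : ℝ => (1 - d) * y + d) (Icc 0 1) (Icc 0 1) := by
      intro y hy
      have k1 := mul_nonneg hc.le hy.1
      have k2 := mul_nonneg hc.le (sub_nonneg.mpr hy.2)
      exact ⟨by linarith, by nlinarith⟩
    have c1 : ContinuousOn (fun y : ℝ => P ((1 - d) * y)) (Icc 0 1) :=
      hPc.comp (by fun_prop : Continuous fun y : ℝ => (1 - d) * y).continuousOn m1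
    have c2 : ContinuousOn (fun y : ℝ => P ((1 - d) * y + d)) (Icc 0 1) :=
      hPc.comp (by fun_prop : Continuous fun y : ℝ => (1 - d) * y + d).continuousOn m2
    exact (c1.pow 2).mul (c2.pow 2)
  have hmono := intervalIntegral.integral_mono_on zero_le_one hI1 hI2 hpt
  rw [intervalIntegral.integral_const_mul] at hmono
  calc (1 - d) ^ 5 * ∫ t in (0:ℝ)..1, (P t) ^ 4
      = (1 - d) * ((1 - d) ^ 4 * ∫ t in (0:ℝ)..1, (P t) ^ 4) := by ring
    _ ≤ (1 - d) * ∫ y in (0:ℝ)..1, (P ((1 - d) * y)) ^ 2 * (P ((1 - d) * y + d)) ^ 2 :=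
        mul_le_mul_of_nonneg_left hmono hc.le

end BMB

/-! ### BMC : concavity of the fifth root along chords from zero -/

section BMC

theorem sq_bmc_scaled {P : ℝ → ℝ} (hPc : ContinuousOn P (Icc 0 1)) (d : ℝ) {t : ℝ}
    (ht : 0 < t) :
    (∀ u : ℝ, 0 ≤ (t⁻¹) ^ 4 * ((ext P (t * u)) ^ 2 * (ext P (t * u + d)) ^ 2)) ∧
    Measurable (fun u : ℝ => (t⁻¹) ^ 4 * ((ext P (t * u)) ^ 2 * (ext P (t * u + d)) ^ 2)) ∧
    Integrable (fun u : ℝ => (t⁻¹) ^ 4 * ((ext P (t * u)) ^ 2 * (ext P (t * u + d)) ^ 2)) ∧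
    (∃ M : ℝ, ∀ u : ℝ, (t⁻¹) ^ 4 * ((ext P (t * u)) ^ 2 * (ext P (t * u + d)) ^ 2) ≤ M) ∧
    (∫ u : ℝ, (t⁻¹) ^ 4 * ((ext P (t * u)) ^ 2 * (ext P (t * u + d)) ^ 2)) =
      (t⁻¹) ^ 5 * corr P d := by
  refine ⟨fun u => by positivity, ?_, ?_, ?_, ?_⟩
  · exact ((ker_measurable hPc d).comp (measurable_const_mul t)).const_mul _
  · exact ((ker_integrable hPc d).comp_mul_left' ht.ne').const_mul _
  · obtain ⟨M, hM⟩ := ker_bdd hPc d
    exact ⟨(t⁻¹) ^ 4 * M, fun u => mul_le_mul_of_nonneg_left (hM (t * u)) (by positivity)⟩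
  · rw [integral_const_mul]
    have h := Measure.integral_comp_mul_left
      (fun x : ℝ => (ext P x) ^ 2 * (ext P (x + d)) ^ 2) t
    rw [h, abs_of_pos (inv_pos.mpr ht), smul_eq_mul]
    unfold corr
    ring

theorem sq_bmc_level {P : ℝ → ℝ} (hP : ConcaveOn ℝ (Icc 0 1) P)
    (hP0 : ∀ t ∈ Icc (0:ℝ) 1, 0 ≤ P t) (d : ℝ) {t : ℝ} (ht : 0 < t) (c : ℝ) (hc : 0 < c) :
    Convex ℝ {u : ℝ | c ≤ (t⁻¹) ^ 4 * ((ext P (t * u)) ^ 2 * (ext P (t * u + d)) ^ 2)} := by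
  have hconv := corr_level_convex hP hP0 d (c * t ^ 4) (by positivity)
  have key : ∀ u : ℝ, (c ≤ (t⁻¹) ^ 4 * ((ext P (t * u)) ^ 2 * (ext P (t * u + d)) ^ 2)) ↔
      c * t ^ 4 ≤ (ext P (t * u)) ^ 2 * (ext P (t * u + d)) ^ 2 := by
    intro u
    rw [inv_pow, inv_mul_eq_div, le_div_iff₀ (by positivity)]
  intro u1 hu1 u2 hu2 a b ha hb hab
  have h1 : c * t ^ 4 ≤ (ext P (t * u1)) ^ 2 * (ext P (t * u1 + d)) ^ 2 := (key u1).mp hu1
  have h2 : c * t ^ 4 ≤ (ext P (t * u2)) ^ 2 * (ext P (t * u2 + d)) ^ 2 := (key u2).mp hu2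
  have h3 := hconv h1 h2 ha hb hab
  have e : t * (a • u1 + b • u2) = a • (t * u1) + b • (t * u2) := by
    simp only [smul_eq_mul]
    ring
  refine (key _).mpr ?_
  rw [e]
  exact h3

theorem sq_bmc_key {P : ℝ → ℝ} (hP : ConcaveOn ℝ (Icc 0 1) P)
    (hP0 : ∀ t ∈ Icc (0:ℝ) 1, 0 ≤ P t) (d : ℝ) {s α β γ : ℝ} (hs0 : 0 < s) (hs1 : s < 1)
    (hα : 0 < α) (hβ : 0 < β) (hγ : γ = (1 - s) * α + s * β) (u v : ℝ) :
    ((α⁻¹) ^ 4 * ((ext P (α * u)) ^ 2 * (ext P (α * u + 0)) ^ 2)) ^ ((1 - s) * α / γ) *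
      ((β⁻¹) ^ 4 * ((ext P (β * v)) ^ 2 * (ext P (β * v + d)) ^ 2)) ^ (s * β / γ) ≤
    (γ⁻¹) ^ 4 * ((ext P (γ * ((1 - s) * α / γ * u + s * β / γ * v))) ^ 2 *
      (ext P (γ * ((1 - s) * α / γ * u + s * β / γ * v) + s * d)) ^ 2) := by
  have h1s : 0 < 1 - s := sub_pos.mpr hs1
  have hγpos : 0 < γ := by
    rw [hγ]
    exact add_pos (mul_pos h1s hα) (mul_pos hs0 hβ)
  have hγne : γ ≠ 0 := hγpos.ne'
  have hw1 : 0 < (1 - s) * α / γ := div_pos (mul_pos h1s hα) hγpos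
  have hw2 : 0 < s * β / γ := div_pos (mul_pos hs0 hβ) hγpos
  have hw : (1 - s) * α / γ + s * β / γ = 1 := by
    rw [← add_div, ← hγ, div_self hγne]
  have ez : γ * ((1 - s) * α / γ * u + s * β / γ * v) = (1 - s) * (α * u) + s * (β * v) := by
    field_simp
  rw [ez, add_zero]
  obtain ⟨x, hx⟩ : ∃ x : ℝ, x = α * u := ⟨_, rfl⟩
  obtain ⟨y, hy⟩ : ∃ y : ℝ, y = β * v := ⟨_, rfl⟩
  rw [← hx, ← hy]
  have hA := ext_nonneg hP0 x
  have hC := ext_nonneg hP0 y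
  have hD := ext_nonneg hP0 (y + d)
  have hR : 0 ≤ (γ⁻¹) ^ 4 * ((ext P ((1 - s) * x + s * y)) ^ 2 *
      (ext P ((1 - s) * x + s * y + s * d)) ^ 2) := by positivity
  rcases hA.eq_or_lt with hA0 | hApos
  · have hf0 : (α⁻¹) ^ 4 * ((ext P x) ^ 2 * (ext P x) ^ 2) = 0 := by
      rw [← hA0]
      ring
    rw [hf0, Real.zero_rpow hw1.ne', zero_mul]
    exact hR
  rcases hC.eq_or_lt with hC0 | hCpos
  · have hg0 : (β⁻¹) ^ 4 * ((ext P y) ^ 2 * (ext P (y + d)) ^ 2) = 0 := by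
      rw [← hC0]
      ring
    rw [hg0, Real.zero_rpow hw2.ne', mul_zero]
    exact hR
  rcases hD.eq_or_lt with hD0 | hDpos
  · have hg0 : (β⁻¹) ^ 4 * ((ext P y) ^ 2 * (ext P (y + d)) ^ 2) = 0 := by
      rw [← hD0]
      ring
    rw [hg0, Real.zero_rpow hw2.ne', mul_zero]
    exact hR
  have hpt := corr_pointwise hP d hs0.le hs1.le x y hApos hCpos hDpos
  obtain ⟨B, hB⟩ : ∃ B : ℝ, B = Real.sqrt (ext P y * ext P (y + d)) := ⟨_, rfl⟩
  rw [← hB] at hpt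
  have hBpos : 0 < B := by
    rw [hB]
    exact Real.sqrt_pos.mpr (mul_pos hCpos hDpos)
  have hB2 : B ^ 2 = ext P y * ext P (y + d) := by
    rw [hB]
    exact Real.sq_sqrt (mul_pos hCpos hDpos).le
  obtain ⟨A, hAdef⟩ : ∃ A : ℝ, A = ext P x := ⟨_, rfl⟩
  rw [← hAdef] at hpt hApos ⊢
  have ef : (α⁻¹) ^ 4 * (A ^ 2 * A ^ 2) = (A / α) ^ 4 := by
    rw [div_eq_mul_inv]
    ring
  have eg : (β⁻¹) ^ 4 * ((ext P y) ^ 2 * (ext P (y + d)) ^ 2) = (B / β) ^ 4 := by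
    have h4 : (B / β) ^ 4 = (β⁻¹) ^ 4 * (B ^ 2) ^ 2 := by
      rw [div_eq_mul_inv]
      ring
    rw [h4, hB2]
    ring
  rw [ef, eg]
  have hp1 : 0 ≤ A / α := div_nonneg hApos.le hα.le
  have hp2 : 0 ≤ B / β := div_nonneg hBpos.le hβ.le
  rw [← Real.rpow_pow_comm hp1, ← Real.rpow_pow_comm hp2, ← mul_pow]
  have amgm := Real.geom_mean_le_arith_mean2_weighted hw1.le hw2.le hp1 hp2 hw
  have e3 : (1 - s) * α / γ * (A / α) + s * β / γ * (B / β) = ((1 - s) * A + s * B) / γ := by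
    field_simp
  rw [e3] at amgm
  have hnn : 0 ≤ (1 - s) * A + s * B :=
    add_nonneg (mul_nonneg h1s.le hApos.le) (mul_nonneg hs0.le hBpos.le)
  calc ((A / α) ^ ((1 - s) * α / γ) * (B / β) ^ (s * β / γ)) ^ 4
      ≤ (((1 - s) * A + s * B) / γ) ^ 4 :=
        pow_le_pow_left₀ (mul_nonneg (Real.rpow_nonneg hp1 _) (Real.rpow_nonneg hp2 _)) amgm 4
    _ = (γ⁻¹) ^ 4 * (((1 - s) * A + s * B) ^ 2) ^ 2 := by
        rw [div_eq_mul_inv]
        ring
    _ ≤ (γ⁻¹) ^ 4 * (ext P ((1 - s) * x + s * y) *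
          ext P ((1 - s) * x + s * y + s * d)) ^ 2 := by
        apply mul_le_mul_of_nonneg_left _ (by positivity)
        exact pow_le_pow_left₀ (sq_nonneg _) hpt 2
    _ = _ := by ring

theorem corr_bm {P : ℝ → ℝ} (hP : ConcaveOn ℝ (Icc 0 1) P) (hPc : ContinuousOn P (Icc 0 1))
    (hP0 : ∀ t ∈ Icc (0:ℝ) 1, 0 ≤ P t) (hPne : ∃ t ∈ Icc (0:ℝ) 1, 0 < P t) (d : ℝ) {s : ℝ}
    (hs0 : 0 ≤ s) (hs1 : s ≤ 1) (hd : 0 < corr P d) :
    (1 - s) * (corr P 0) ^ ((1:ℝ) / 5) + s * (corr P d) ^ ((1:ℝ) / 5) ≤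
      (corr P (s * d)) ^ ((1:ℝ) / 5) := by
  rcases hs0.eq_or_lt with h0 | hs0'
  · rw [← h0]
    simp
  rcases hs1.eq_or_lt with h1 | hs1'
  · rw [h1]
    simp
  have hI0 : 0 < corr P 0 := corr_zero_pos hPc hP0 hPne
  obtain ⟨α, hαdef⟩ : ∃ α : ℝ, α = (corr P 0) ^ ((1:ℝ) / 5) := ⟨_, rfl⟩
  obtain ⟨β, hβdef⟩ : ∃ β : ℝ, β = (corr P d) ^ ((1:ℝ) / 5) := ⟨_, rfl⟩
  rw [← hαdef, ← hβdef]
  have hα : 0 < α := by
    rw [hαdef]
    exact Real.rpow_pos_of_pos hI0 _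
  have hβ : 0 < β := by
    rw [hβdef]
    exact Real.rpow_pos_of_pos hd _
  have hα5 : α ^ 5 = corr P 0 := by
    rw [hαdef, ← Real.rpow_natCast, ← Real.rpow_mul hI0.le]
    norm_num
  have hβ5 : β ^ 5 = corr P d := by
    rw [hβdef, ← Real.rpow_natCast, ← Real.rpow_mul hd.le]
    norm_num
  obtain ⟨γ, hγdef⟩ : ∃ γ : ℝ, γ = (1 - s) * α + s * β := ⟨_, rfl⟩
  rw [← hγdef]
  have h1s : 0 < 1 - s := sub_pos.mpr hs1'
  have hγ : 0 < γ := by
    rw [hγdef]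
    exact add_pos (mul_pos h1s hα) (mul_pos hs0' hβ)
  have hw1 : 0 < (1 - s) * α / γ := div_pos (mul_pos h1s hα) hγ
  have hw2 : 0 < s * β / γ := div_pos (mul_pos hs0' hβ) hγ
  have hw : (1 - s) * α / γ + s * β / γ = 1 := by
    rw [← add_div, ← hγdef, div_self hγ.ne']
  obtain ⟨f0, fm, fi, fb, fint⟩ := sq_bmc_scaled hPc 0 hα
  obtain ⟨g0, gm, gi, gb, gint⟩ := sq_bmc_scaled hPc d hβ
  obtain ⟨k0, km, ki, -, kint⟩ := sq_bmc_scaled hPc (s * d) hγ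
  have PL := prekopa_leindler_one _ _ _ ((1 - s) * α / γ) (s * β / γ) hw1 hw2 hw
    f0 g0 k0 fm gm km fi gi ki fb gb
    (fun c hc => sq_bmc_level hP hP0 0 hα c hc) (fun c hc => sq_bmc_level hP hP0 d hβ c hc)
    (fun u v => sq_bmc_key hP hP0 d hs0' hs1' hα hβ hγdef u v)
  have e1 : (α⁻¹) ^ 5 * corr P 0 = 1 := by
    rw [← hα5, ← mul_pow, inv_mul_cancel₀ hα.ne', one_pow]
  have e2 : (β⁻¹) ^ 5 * corr P d = 1 := by
    rw [← hβ5, ← mul_pow, inv_mul_cancel₀ hβ.ne', one_pow]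
  rw [fint, gint, kint, e1, e2, Real.one_rpow, Real.one_rpow, one_mul] at PL
  have h5 : γ ^ 5 ≤ corr P (s * d) := by
    have h6 := mul_le_mul_of_nonneg_left PL (pow_pos hγ 5).le
    rw [mul_one, ← mul_assoc, ← mul_pow, mul_inv_cancel₀ hγ.ne', one_pow, one_mul] at h6
    exact h6
  calc γ = (γ ^ 5) ^ ((1:ℝ) / 5) := by
        rw [← Real.rpow_natCast, ← Real.rpow_mul hγ.le]
        norm_num
    _ ≤ (corr P (s * d)) ^ ((1:ℝ) / 5) :=
        Real.rpow_le_rpow (pow_pos hγ 5).le h5 (by norm_num)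

end BMC

/-! ### POLY : three polynomial facts -/

section POLY

theorem sq_poly_deriv0 (r d : ℝ) :
    HasDerivAt (fun x : ℝ => x - 5 * r / 2 * x ^ 2 + 10 * r ^ 2 / 3 * x ^ 3
      - 5 * r ^ 3 / 2 * x ^ 4 + r ^ 4 * x ^ 5 - r ^ 5 / 6 * x ^ 6) ((1 - r * d) ^ 5) d := by
  have h1 := hasDerivAt_id' d
  have h2 := (hasDerivAt_pow 2 d).const_mul (5 * r / 2)
  have h3 := (hasDerivAt_pow 3 d).const_mul (10 * r ^ 2 / 3)
  have h4 := (hasDerivAt_pow 4 d).const_mul (5 * r ^ 3 / 2)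
  have h5 := (hasDerivAt_pow 5 d).const_mul (r ^ 4)
  have h6 := (hasDerivAt_pow 6 d).const_mul (r ^ 5 / 6)
  have hF := ((((h1.sub h2).add h3).sub h4).add h5).sub h6
  refine hF.congr_deriv ?_
  norm_num
  ring

theorem sq_poly_deriv2 (r d : ℝ) :
    HasDerivAt (fun x : ℝ => 1 / 3 * x ^ 3 - 5 * r / 4 * x ^ 4 + 2 * r ^ 2 * x ^ 5
      - 5 * r ^ 3 / 3 * x ^ 6 + 5 * r ^ 4 / 7 * x ^ 7 - r ^ 5 / 8 * x ^ 8)
      (d ^ 2 * (1 - r * d) ^ 5) d := by
  have h1 := (hasDerivAt_pow 3 d).const_mul (1 / 3 : ℝ)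
  have h2 := (hasDerivAt_pow 4 d).const_mul (5 * r / 4)
  have h3 := (hasDerivAt_pow 5 d).const_mul (2 * r ^ 2)
  have h4 := (hasDerivAt_pow 6 d).const_mul (5 * r ^ 3 / 3)
  have h5 := (hasDerivAt_pow 7 d).const_mul (5 * r ^ 4 / 7)
  have h6 := (hasDerivAt_pow 8 d).const_mul (r ^ 5 / 8)
  have hF := ((((h1.sub h2).add h3).sub h4).add h5).sub h6
  refine hF.congr_deriv ?_
  norm_num
  ring

theorem poly_int0 (r : ℝ) :
    ∫ d in (0:ℝ)..1, (1 - r * d) ^ 5 =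
      1 - 5 * r / 2 + 10 * r ^ 2 / 3 - 5 * r ^ 3 / 2 + r ^ 4 - r ^ 5 / 6 := by
  have hc : Continuous fun d : ℝ => (1 - r * d) ^ 5 := by fun_prop
  rw [intervalIntegral.integral_eq_sub_of_hasDerivAt (fun d _ => sq_poly_deriv0 r d)
    (hc.intervalIntegrable _ _)]
  norm_num

theorem poly_int2 (r : ℝ) :
    ∫ d in (0:ℝ)..1, d ^ 2 * (1 - r * d) ^ 5 =
      1 / 3 - 5 * r / 4 + 2 * r ^ 2 - 5 * r ^ 3 / 3 + 5 * r ^ 4 / 7 - r ^ 5 / 8 := by
  have hc : Continuous fun d : ℝ => d ^ 2 * (1 - r * d) ^ 5 := by fun_prop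
  rw [intervalIntegral.integral_eq_sub_of_hasDerivAt (fun d _ => sq_poly_deriv2 r d)
    (hc.intervalIntegrable _ _)]
  norm_num

theorem poly_gap {r : ℝ} (hr0 : 0 < r) :
    1 / (6 * r) - (1 - 5 * r / 2 + 10 * r ^ 2 / 3 - 5 * r ^ 3 / 2 + r ^ 4 - r ^ 5 / 6) =
      (1 - r) ^ 6 / (6 * r) := by
  field_simp
  ring

theorem poly_final {r : ℝ} (hr0 : 0 < r) (hr1 : r ≤ 1) :
    (1 / 3 - 5 * r / 4 + 2 * r ^ 2 - 5 * r ^ 3 / 3 + 5 * r ^ 4 / 7 - r ^ 5 / 8) +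
      (1 / (6 * r) - (1 - 5 * r / 2 + 10 * r ^ 2 / 3 - 5 * r ^ 3 / 2 + r ^ 4 - r ^ 5 / 6)) ≤
      1 / (168 * r ^ 3) := by
  rw [poly_gap hr0, le_div_iff₀ (by positivity)]
  have key : ((1 / 3 - 5 * r / 4 + 2 * r ^ 2 - 5 * r ^ 3 / 3 + 5 * r ^ 4 / 7 - r ^ 5 / 8) +
      (1 - r) ^ 6 / (6 * r)) * (168 * r ^ 3) = 1 - 8 * (1 - r) ^ 7 + 7 * ((1 - r) ^ 7 * (1 - r)) := by
    field_simp
    ring
  rw [key]
  have hq : 0 ≤ (1 - r) ^ 7 := pow_nonneg (by linarith) 7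
  nlinarith [mul_nonneg hq hr0.le]

end POLY

/-! ### CROSSA : the single crossing -/

section CROSSA

theorem sq_crossa_root_pow {x : ℝ} (hx : 0 ≤ x) : (x ^ ((1:ℝ) / 5)) ^ 5 = x := by
  have h := Real.rpow_inv_natCast_pow hx (by norm_num : (5:ℕ) ≠ 0)
  have e : ((5:ℕ):ℝ)⁻¹ = (1:ℝ) / 5 := by norm_num
  rw [e] at h
  exact h

theorem sq_crossa_down (H : ℝ → ℝ) (c r : ℝ) (hc : 0 < c) (hr0 : 0 < r) (hr1 : r ≤ 1)
    (hH0 : ∀ d ∈ Icc (0:ℝ) 1, 0 ≤ H d)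
    (hlow : ∀ d ∈ Icc (0:ℝ) 1, (1 - d) ^ 5 * c ≤ H d)
    (hstar : ∀ d1 d2 : ℝ, 0 < d1 → d1 ≤ d2 → d2 ≤ 1 → 0 < H d2 →
      (1 - d1 / d2) * c ^ ((1:ℝ) / 5) + (d1 / d2) * (H d2) ^ ((1:ℝ) / 5) ≤
        (H d1) ^ ((1:ℝ) / 5))
    {d1 d2 : ℝ} (hd1 : 0 < d1) (h12 : d1 ≤ d2) (hd2 : d2 ≤ 1)
    (h2 : c * (1 - r * d2) ^ 5 ≤ H d2) : c * (1 - r * d1) ^ 5 ≤ H d1 := by
  have hd2pos : 0 < d2 := lt_of_lt_of_le hd1 h12
  have hd1m : d1 ∈ Icc (0:ℝ) 1 := ⟨hd1.le, h12.trans hd2⟩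
  have hd2m : d2 ∈ Icc (0:ℝ) 1 := ⟨hd2pos.le, hd2⟩
  have hrd2 : r * d2 ≤ 1 := by nlinarith
  rcases eq_or_lt_of_le (hH0 d2 hd2m) with hz | hpos
  · rw [← hz] at h2
    have h5 : (1 - r * d2) ^ 5 ≤ 0 := by
      by_contra hcon
      push Not at hcon
      nlinarith [mul_pos hc hcon]
    have h1 : 1 - r * d2 ≤ 0 := by
      by_contra hcon
      push Not at hcon
      exact absurd (pow_pos hcon 5) (not_lt.mpr h5)
    have hr : r = 1 := by
      by_contra hne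
      have hlt : r < 1 := lt_of_le_of_ne hr1 hne
      nlinarith
    rw [hr, one_mul, mul_comm]
    exact hlow d1 hd1m
  · have hs := hstar d1 d2 hd1 h12 hd2 hpos
    have ha0 : 0 ≤ c ^ ((1:ℝ) / 5) := Real.rpow_nonneg hc.le _
    have ha5 : (c ^ ((1:ℝ) / 5)) ^ 5 = c := sq_crossa_root_pow hc.le
    have hq0 : 0 ≤ (H d2) ^ ((1:ℝ) / 5) := Real.rpow_nonneg hpos.le _
    have hq5 : ((H d2) ^ ((1:ℝ) / 5)) ^ 5 = H d2 := sq_crossa_root_pow hpos.le
    have hp5 : ((H d1) ^ ((1:ℝ) / 5)) ^ 5 = H d1 := sq_crossa_root_pow (hH0 d1 hd1m)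
    have hb : c ^ ((1:ℝ) / 5) * (1 - r * d2) ≤ (H d2) ^ ((1:ℝ) / 5) := by
      by_contra hcon
      push Not at hcon
      have h7 := pow_lt_pow_left₀ hcon hq0 (by norm_num : (5:ℕ) ≠ 0)
      rw [hq5, mul_pow, ha5] at h7
      linarith
    have htd : d1 / d2 * d2 = d1 := div_mul_cancel₀ d1 hd2pos.ne'
    obtain ⟨t, ht⟩ : ∃ t : ℝ, t = d1 / d2 := ⟨_, rfl⟩
    rw [← ht] at hs htd
    have ht0 : 0 ≤ t := by rw [ht]; exact (div_pos hd1 hd2pos).le
    have hge : c ^ ((1:ℝ) / 5) * (1 - r * d1) ≤ (H d1) ^ ((1:ℝ) / 5) := by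
      have h3 : t * (c ^ ((1:ℝ) / 5) * (1 - r * d2)) ≤ t * (H d2) ^ ((1:ℝ) / 5) :=
        mul_le_mul_of_nonneg_left hb ht0
      have e : c ^ ((1:ℝ) / 5) * (1 - r * d1)
          = (1 - t) * c ^ ((1:ℝ) / 5) + t * (c ^ ((1:ℝ) / 5) * (1 - r * d2)) := by
        rw [← htd]; ring
      linarith
    have hrd1 : 0 ≤ 1 - r * d1 := by nlinarith
    have h6 := pow_le_pow_left₀ (mul_nonneg ha0 hrd1) hge 5
    rw [hp5, mul_pow, ha5] at h6
    exact h6

theorem cross_point (H : ℝ → ℝ) (c r : ℝ) (hc : 0 < c) (hr0 : 0 < r) (hr1 : r ≤ 1)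
    (hH0 : ∀ d ∈ Icc (0:ℝ) 1, 0 ≤ H d)
    (hlow : ∀ d ∈ Icc (0:ℝ) 1, (1 - d) ^ 5 * c ≤ H d)
    (hstar : ∀ d1 d2 : ℝ, 0 < d1 → d1 ≤ d2 → d2 ≤ 1 → 0 < H d2 →
      (1 - d1 / d2) * c ^ ((1:ℝ) / 5) + (d1 / d2) * (H d2) ^ ((1:ℝ) / 5) ≤
        (H d1) ^ ((1:ℝ) / 5)) :
    ∃ d0 ∈ Icc (0:ℝ) 1, ∀ d ∈ Ioc (0:ℝ) 1,
      (d < d0 → c * (1 - r * d) ^ 5 ≤ H d) ∧ (d0 < d → H d ≤ c * (1 - r * d) ^ 5) := by
  obtain ⟨S, hS⟩ : ∃ S : Set ℝ,
      S = insert (0:ℝ) {d : ℝ | d ∈ Ioc (0:ℝ) 1 ∧ c * (1 - r * d) ^ 5 ≤ H d} := ⟨_, rfl⟩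
  have hS0 : (0:ℝ) ∈ S := by rw [hS]; exact mem_insert _ _
  have hSle : ∀ x ∈ S, x ≤ 1 := by
    intro x hx
    rw [hS] at hx
    rcases hx with rfl | hx
    · exact zero_le_one
    · exact hx.1.2
  have hbdd : BddAbove S := ⟨1, hSle⟩
  have hne : S.Nonempty := ⟨0, hS0⟩
  refine ⟨sSup S, ⟨le_csSup hbdd hS0, csSup_le hne hSle⟩, ?_⟩
  intro d hd
  refine ⟨fun hlt => ?_, fun hgt => ?_⟩
  · obtain ⟨d', hd'S, hdd'⟩ := exists_lt_of_lt_csSup hne hlt
    rw [hS] at hd'S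
    rcases hd'S with rfl | hd'D
    · exact absurd hd.1 (not_lt.mpr hdd'.le)
    · exact sq_crossa_down H c r hc hr0 hr1 hH0 hlow hstar hd.1 hdd'.le hd'D.1.2 hd'D.2
  · by_contra hcon
    push Not at hcon
    have hdS : d ∈ S := by
      rw [hS]
      exact mem_insert_of_mem _ ⟨hd, hcon.le⟩
    exact absurd (le_csSup hbdd hdS) (not_le.mpr hgt)

end CROSSA

/-! ### CROSSB : the moment comparison -/

section CROSSB

theorem sq_crossb_pt (H : ℝ → ℝ) (c r d0 : ℝ) (hd0 : d0 ∈ Icc (0:ℝ) 1)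
    (hlow : ∀ d ∈ Icc (0:ℝ) 1, (1 - d) ^ 5 * c ≤ H d)
    (hcross : ∀ d ∈ Ioc (0:ℝ) 1,
      (d < d0 → c * (1 - r * d) ^ 5 ≤ H d) ∧ (d0 < d → H d ≤ c * (1 - r * d) ^ 5)) :
    ∀ d ∈ Icc (0:ℝ) 1, d ^ 2 * H d ≤
      d ^ 2 * (c * (1 - r * d) ^ 5) + d0 ^ 2 * (H d - c * (1 - r * d) ^ 5) := by
  intro d hd
  rcases eq_or_lt_of_le hd.1 with h0 | h0
  · rw [← h0]
    have hl := hlow 0 ⟨le_refl _, zero_le_one⟩
    have hl' : c ≤ H 0 := by simpa using hl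
    have e : (0:ℝ) ^ 2 * H 0 = 0 := by ring
    have e2 : (0:ℝ) ^ 2 * (c * (1 - r * 0) ^ 5) + d0 ^ 2 * (H 0 - c * (1 - r * 0) ^ 5) =
        d0 ^ 2 * (H 0 - c) := by ring
    rw [e, e2]
    exact mul_nonneg (sq_nonneg d0) (by linarith)
  · obtain ⟨hc1, hc2⟩ := hcross d ⟨h0, hd.2⟩
    rcases lt_trichotomy d d0 with hlt | heq | hgt
    · have h1 := hc1 hlt
      have h2 : d ^ 2 ≤ d0 ^ 2 := pow_le_pow_left₀ h0.le hlt.le 2
      generalize c * (1 - r * d) ^ 5 = G at h1 ⊢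
      nlinarith [mul_nonneg (sub_nonneg.mpr h2) (sub_nonneg.mpr h1)]
    · rw [heq]
      exact le_of_eq (by ring)
    · have h1 := hc2 hgt
      have h2 : d0 ^ 2 ≤ d ^ 2 := pow_le_pow_left₀ hd0.1 hgt.le 2
      generalize c * (1 - r * d) ^ 5 = G at h1 ⊢
      nlinarith [mul_nonneg (sub_nonneg.mpr h2) (sub_nonneg.mpr h1)]

theorem moment_cross (H : ℝ → ℝ) (c : ℝ) (hc : 0 < c)
    (hH0 : ∀ d ∈ Icc (0:ℝ) 1, 0 ≤ H d) (hHi : IntervalIntegrable H volume 0 1)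
    (hlow : ∀ d ∈ Icc (0:ℝ) 1, (1 - d) ^ 5 * c ≤ H d)
    (hstar : ∀ d1 d2 : ℝ, 0 < d1 → d1 ≤ d2 → d2 ≤ 1 → 0 < H d2 →
      (1 - d1 / d2) * c ^ ((1:ℝ) / 5) + (d1 / d2) * (H d2) ^ ((1:ℝ) / 5) ≤
        (H d1) ^ ((1:ℝ) / 5)) :
    56 * c ^ 2 * ∫ d in (0:ℝ)..1, d ^ 2 * H d ≤ 9 * (2 * ∫ d in (0:ℝ)..1, H d) ^ 3 := by
  obtain ⟨A, hAdef⟩ : ∃ A : ℝ, A = ∫ d in (0:ℝ)..1, H d := ⟨_, rfl⟩
  rw [← hAdef]
  have h01 : (0:ℝ) ≤ 1 := zero_le_one
  have hI1 : ∫ d in (0:ℝ)..1, (1 - d) ^ 5 * c = c / 6 := by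
    have h := poly_int0 1
    have e : (fun d : ℝ => (1 - d) ^ 5 * c) = fun d => (1 - 1 * d) ^ 5 * c := by
      funext d
      rw [one_mul]
    rw [e, intervalIntegral.integral_mul_const, h]
    ring
  have hA : c / 6 ≤ A := by
    rw [hAdef, ← hI1]
    exact intervalIntegral.integral_mono_on h01
      ((by fun_prop : Continuous fun d : ℝ => (1 - d) ^ 5 * c).intervalIntegrable 0 1) hHi hlow
  have hApos : 0 < A := by linarith
  obtain ⟨r, hrdef⟩ : ∃ r : ℝ, r = c / (6 * A) := ⟨_, rfl⟩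
  have hr0 : 0 < r := by
    rw [hrdef]
    positivity
  have hr1 : r ≤ 1 := by
    rw [hrdef, div_le_one (by positivity)]
    linarith
  have hAr : A = c / (6 * r) := by
    rw [hrdef]
    field_simp
  obtain ⟨d0, hd0, hcross⟩ := cross_point H c r hc hr0 hr1 hH0 hlow hstar
  have hpt := sq_crossb_pt H c r d0 hd0 hlow hcross
  have hgc : Continuous (fun d : ℝ => c * (1 - r * d) ^ 5) := by fun_prop
  have hg_int : IntervalIntegrable (fun d : ℝ => c * (1 - r * d) ^ 5) volume 0 1 :=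
    hgc.intervalIntegrable 0 1
  have hd2g : Continuous (fun d : ℝ => d ^ 2 * (c * (1 - r * d) ^ 5)) := by fun_prop
  have hd2g_int : IntervalIntegrable (fun d : ℝ => d ^ 2 * (c * (1 - r * d) ^ 5)) volume 0 1 :=
    hd2g.intervalIntegrable 0 1
  have hd2H_int : IntervalIntegrable (fun d : ℝ => d ^ 2 * H d) volume 0 1 :=
    hHi.continuousOn_mul (by fun_prop : Continuous fun d : ℝ => d ^ 2).continuousOn
  have hrest_int : IntervalIntegrable
      (fun d : ℝ => d0 ^ 2 * (H d - c * (1 - r * d) ^ 5)) volume 0 1 :=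
    (hHi.sub hg_int).const_mul (d0 ^ 2)
  have hmono := intervalIntegral.integral_mono_on h01 hd2H_int (hd2g_int.add hrest_int) hpt
  rw [intervalIntegral.integral_add hd2g_int hrest_int, intervalIntegral.integral_const_mul,
    intervalIntegral.integral_sub hHi hg_int, ← hAdef] at hmono
  have hIg : ∫ d in (0:ℝ)..1, c * (1 - r * d) ^ 5 =
      c * (1 - 5 * r / 2 + 10 * r ^ 2 / 3 - 5 * r ^ 3 / 2 + r ^ 4 - r ^ 5 / 6) := by
    rw [intervalIntegral.integral_const_mul, poly_int0]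
  have hId2g : ∫ d in (0:ℝ)..1, d ^ 2 * (c * (1 - r * d) ^ 5) =
      c * (1 / 3 - 5 * r / 4 + 2 * r ^ 2 - 5 * r ^ 3 / 3 + 5 * r ^ 4 / 7 - r ^ 5 / 8) := by
    have e : (fun d : ℝ => d ^ 2 * (c * (1 - r * d) ^ 5)) =
        fun d => c * (d ^ 2 * (1 - r * d) ^ 5) := by
      funext d
      ring
    rw [e, intervalIntegral.integral_const_mul, poly_int2]
  rw [hIg, hId2g] at hmono
  have hgap := poly_gap hr0
  have hfin := poly_final hr0 hr1
  obtain ⟨p0, hp0⟩ : ∃ p0 : ℝ,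
      p0 = 1 - 5 * r / 2 + 10 * r ^ 2 / 3 - 5 * r ^ 3 / 2 + r ^ 4 - r ^ 5 / 6 := ⟨_, rfl⟩
  obtain ⟨p2, hp2⟩ : ∃ p2 : ℝ,
      p2 = 1 / 3 - 5 * r / 4 + 2 * r ^ 2 - 5 * r ^ 3 / 3 + 5 * r ^ 4 / 7 - r ^ 5 / 8 := ⟨_, rfl⟩
  rw [← hp0] at hgap hfin hmono
  rw [← hp2] at hfin hmono
  obtain ⟨I2, hI2⟩ : ∃ I2 : ℝ, I2 = ∫ d in (0:ℝ)..1, d ^ 2 * H d := ⟨_, rfl⟩
  rw [← hI2] at hmono ⊢
  have hgap' : A - c * p0 = c * ((1 - r) ^ 6 / (6 * r)) := by
    rw [hAr, ← hgap]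
    ring
  have hnn : 0 ≤ A - c * p0 := by
    rw [hgap']
    positivity
  have hd0sq : d0 ^ 2 ≤ 1 := by nlinarith [hd0.1, hd0.2]
  have hbound : I2 ≤ c * (1 / (168 * r ^ 3)) := by
    have h1 : d0 ^ 2 * (A - c * p0) ≤ 1 * (A - c * p0) := mul_le_mul_of_nonneg_right hd0sq hnn
    have h2 : c * p2 + (A - c * p0) = c * (p2 + (1 / (6 * r) - p0)) := by
      rw [hAr]
      ring
    have h3 := mul_le_mul_of_nonneg_left hfin hc.le
    linarith
  have h4 : 56 * c ^ 2 * I2 ≤ 56 * c ^ 2 * (c * (1 / (168 * r ^ 3))) :=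
    mul_le_mul_of_nonneg_left hbound (by positivity)
  have h5 : 56 * c ^ 2 * (c * (1 / (168 * r ^ 3))) = 9 * (2 * A) ^ 3 := by
    rw [hAr]
    field_simp
    ring
  linarith

end CROSSB

/-! ### MAIN : the one-dimensional inequality -/

section MAIN

theorem sq_ineq (P : ℝ → ℝ) (hP : ConcaveOn ℝ (Icc 0 1) P) (hPc : ContinuousOn P (Icc 0 1))
    (hP0 : ∀ t ∈ Icc (0:ℝ) 1, 0 ≤ P t) (hPne : ∃ t ∈ Icc (0:ℝ) 1, 0 < P t) :
    56 * (∫ t in (0:ℝ)..1, (P t) ^ 4) ^ 2 *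
      ((∫ t in (0:ℝ)..1, (P t) ^ 2) * (∫ t in (0:ℝ)..1, t ^ 2 * (P t) ^ 2)
        - (∫ t in (0:ℝ)..1, t * (P t) ^ 2) ^ 2)
      ≤ 9 * (∫ t in (0:ℝ)..1, (P t) ^ 2) ^ 6 := by
  have hstar : ∀ d1 d2 : ℝ, 0 < d1 → d1 ≤ d2 → d2 ≤ 1 → 0 < corr P d2 →
      (1 - d1 / d2) * (corr P 0) ^ ((1:ℝ) / 5) + (d1 / d2) * (corr P d2) ^ ((1:ℝ) / 5) ≤
        (corr P d1) ^ ((1:ℝ) / 5) := by
    intro d1 d2 hd1 hd12 _ hpos
    have hd2pos : 0 < d2 := lt_of_lt_of_le hd1 hd12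
    have h := corr_bm hP hPc hP0 hPne d2 (s := d1 / d2) (div_nonneg hd1.le hd2pos.le)
      ((div_le_one hd2pos).mpr hd12) hpos
    rwa [div_mul_cancel₀ d1 hd2pos.ne'] at h
  have hmain := moment_cross (corr P) (corr P 0) (corr_zero_pos hPc hP0 hPne)
    (fun d _ => corr_nonneg P d) ((corr_integrable hPc).intervalIntegrable)
    (fun d hd => corr_lower hP hPc hP0 hd.1 hd.2) hstar
  rw [corr_zero, corr_half_moment hPc, corr_half_integral hPc] at hmain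
  have e : ((∫ t in (0:ℝ)..1, (P t) ^ 2) ^ 2) ^ 3 = (∫ t in (0:ℝ)..1, (P t) ^ 2) ^ 6 := by
    ring
  rw [e] at hmain
  exact hmain

end MAIN

/-! ### GEOA : second moments of rectangles and of the body -/

section GEOA

theorem sq_geoa_int_sq_Icc {a : ℝ} (ha : 0 ≤ a) : ∫ x in Icc (-a) a, x ^ 2 = 2 / 3 * a ^ 3 := by
  rw [integral_Icc_eq_integral_Ioc, ← intervalIntegral.integral_of_le (by linarith),
    integral_pow]
  norm_num
  ring

theorem int_sq0_rect {a b : ℝ} (ha : 0 ≤ a) (hb : 0 ≤ b) :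
    ∫ y in rect a b, (y 0) ^ 2 = 4 / 3 * a ^ 3 * b := by
  have h := Ramp.int_rect (fun x => x ^ 2) (fun _ => (1 : ℝ)) a b
  simp only [mul_one] at h
  rw [h, sq_geoa_int_sq_Icc ha, Ramp.int_one_Icc hb]
  ring

theorem int_sq1_rect {a b : ℝ} (ha : 0 ≤ a) (hb : 0 ≤ b) :
    ∫ y in rect a b, (y 1) ^ 2 = 4 / 3 * a * b ^ 3 := by
  have h := Ramp.int_rect (fun _ => (1 : ℝ)) (fun x => x ^ 2) a b
  simp only [one_mul] at h
  rw [h, sq_geoa_int_sq_Icc hb, Ramp.int_one_Icc ha]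
  ring

theorem wedgeP_m2_1 {P R : ℝ → ℝ} (hPc : ContinuousOn P (Icc 0 1))
    (hRc : ContinuousOn R (Icc 0 1)) (hP0 : ∀ t ∈ Icc (0:ℝ) 1, 0 ≤ P t)
    (hR0 : ∀ t ∈ Icc (0:ℝ) 1, 0 ≤ R t) :
    m2 (wedgeP P R) 1 = 4 / 3 * ∫ t in (0:ℝ)..1, (P t) ^ 3 * R t := by
  unfold m2
  rw [integral_slice (Ramp.wedgeP_isCompact hPc hRc) (fun x => (x 1) ^ 2) (by fun_prop)]
  have e : ∀ (t : ℝ) (y : Fin 2 → ℝ), ((Fin.cons t y : Fin 3 → ℝ) 1) ^ 2 = (y 0) ^ 2 :=
    fun t y => rfl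
  simp only [e]
  rw [← intervalIntegral.integral_const_mul]
  refine Ramp.int_line_eqP _ _ (fun t ht => ?_) (fun t ht => ?_)
  · rw [Ramp.sec_wedgeP_of_mem P R ht, int_sq0_rect (hP0 t ht) (hR0 t ht)]
    ring
  · rw [Ramp.sec_wedgeP_of_not_mem P R ht]
    simp

theorem wedgeP_m2_2 {P R : ℝ → ℝ} (hPc : ContinuousOn P (Icc 0 1))
    (hRc : ContinuousOn R (Icc 0 1)) (hP0 : ∀ t ∈ Icc (0:ℝ) 1, 0 ≤ P t)
    (hR0 : ∀ t ∈ Icc (0:ℝ) 1, 0 ≤ R t) :
    m2 (wedgeP P R) 2 = 4 / 3 * ∫ t in (0:ℝ)..1, P t * (R t) ^ 3 := by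
  unfold m2
  rw [integral_slice (Ramp.wedgeP_isCompact hPc hRc) (fun x => (x 2) ^ 2) (by fun_prop)]
  have e : ∀ (t : ℝ) (y : Fin 2 → ℝ), ((Fin.cons t y : Fin 3 → ℝ) 2) ^ 2 = (y 1) ^ 2 :=
    fun t y => rfl
  simp only [e]
  rw [← intervalIntegral.integral_const_mul]
  refine Ramp.int_line_eqP _ _ (fun t ht => ?_) (fun t ht => ?_)
  · rw [Ramp.sec_wedgeP_of_mem P R ht, int_sq1_rect (hP0 t ht) (hR0 t ht)]
    ring
  · rw [Ramp.sec_wedgeP_of_not_mem P R ht]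
    simp

end GEOA

/-! ### GEOB : the exact ratio for two planes of symmetry -/

section GEOB

theorem sq_geob_det {K : Set (Fin 3 → ℝ)}
    (h1 : ∀ x ∈ K, Function.update x 1 (-(x 1)) ∈ K)
    (h2 : ∀ x ∈ K, Function.update x 2 (-(x 2)) ∈ K) :
    (covMatrix K).det =
      ((vol K)⁻¹ * Two.cm0 K) * ((vol K)⁻¹ * m2 K 1) * ((vol K)⁻¹ * m2 K 2) := by
  rw [Two.covMatrix_two_flip0 h1 h2, Matrix.det_diagonal, Fin.prod_univ_three]
  rfl

theorem two_flip0_ratio_eq {K : Set (Fin 3 → ℝ)} (hK : IsCompact K)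
    (hi : (interior K).Nonempty)
    (h1 : ∀ x ∈ K, Function.update x 1 (-(x 1)) ∈ K)
    (h2 : ∀ x ∈ K, Function.update x 2 (-(x 2)) ∈ K) :
    (covMatrix K).det / (vol K) ^ 2 =
      ((vol K * (∫ x in K, (x 0) ^ 2) - (∫ x in K, x 0) ^ 2) * m2 K 1 * m2 K 2) /
        (vol K) ^ 6 := by
  have hV : 0 < vol K := vol_pos_of_interior hK hi
  have hW := Two.vol_mul_cm0 hK hV
  have hinv : (vol K)⁻¹ * vol K = 1 := inv_mul_cancel₀ hV.ne'
  rw [sq_geob_det h1 h2, ← hW, div_eq_div_iff (pow_ne_zero _ hV.ne') (pow_ne_zero _ hV.ne')]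
  linear_combination (Two.cm0 K * m2 K 1 * m2 K 2 * (vol K) ^ 3
    * (((vol K)⁻¹ * vol K) ^ 2 + (vol K)⁻¹ * vol K + 1)) * hinv

theorem two_flip0_ratio_nonneg {K : Set (Fin 3 → ℝ)} (hK : IsCompact K)
    (hi : (interior K).Nonempty)
    (h1 : ∀ x ∈ K, Function.update x 1 (-(x 1)) ∈ K)
    (h2 : ∀ x ∈ K, Function.update x 2 (-(x 2)) ∈ K) :
    0 ≤ (covMatrix K).det / (vol K) ^ 2 := by
  have hV : 0 < vol K := vol_pos_of_interior hK hi
  have hx1 : 0 ≤ m2 K 1 := integral_nonneg fun x => sq_nonneg (x 1)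
  have hx2 : 0 ≤ m2 K 2 := integral_nonneg fun x => sq_nonneg (x 2)
  have hw : 0 ≤ Two.cm0 K := Two.cm0_nonneg K
  rw [sq_geob_det h1 h2]
  have hinv : 0 ≤ (vol K)⁻¹ := inv_nonneg.2 hV.le
  exact div_nonneg (mul_nonneg (mul_nonneg (mul_nonneg hinv hw) (mul_nonneg hinv hx1))
    (mul_nonneg hinv hx2)) (pow_nonneg hV.le 2)

theorem isotropic_lt_of_ratio (K : Set (Fin 3 → ℝ))
    (hle : (covMatrix K).det / (vol K) ^ 2 ≤ 1 / 896)
    (hnn : 0 ≤ (covMatrix K).det / (vol K) ^ 2)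
    (T : Fin 4 → Fin 3 → ℝ) (hT : AffineIndependent ℝ T) :
    isotropicConstant K < isotropicConstant (convexHull ℝ (Set.range T)) := by
  unfold isotropicConstant
  rw [ratio_general_simplex T hT]
  have hnum : (9 / 8000 : ℝ) = simplexRatio 3 := by
    norm_num [simplexRatio, Nat.factorial]
  have hpos : (0:ℝ) < 1 / (2 * ((3 : ℕ) : ℝ)) := by norm_num
  have hlt : (covMatrix K).det / (vol K) ^ 2 < simplexRatio 3 := by
    rw [← hnum]
    exact lt_of_le_of_lt hle (by norm_num)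
  exact Real.rpow_lt_rpow hnn hlt hpos

end GEOB

/-! ### GEOC : the body with homothetic rectangular sections -/

section GEOC

/-- The body `{x | 0 ≤ x₀ ≤ 1, |x₁| ≤ P x₀, |x₂| ≤ k P x₀}`. -/
def sqBody (k : ℝ) (P : ℝ → ℝ) : Set (Fin 3 → ℝ) :=
  {x | 0 ≤ x 0 ∧ x 0 ≤ 1 ∧ |x 1| ≤ P (x 0) ∧ |x 2| ≤ k * P (x 0)}

theorem sqBody_eq (k : ℝ) (P : ℝ → ℝ) : sqBody k P = wedgeP P (fun t => k * P t) := rfl

/-- Positivity of the integral of the square of the profile. -/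
theorem sq_geoc_int_pos {P : ℝ → ℝ} (hPc : ContinuousOn P (Icc 0 1))
    (hP0 : ∀ t ∈ Icc (0:ℝ) 1, 0 ≤ P t) (hPne : ∃ t ∈ Icc (0:ℝ) 1, 0 < P t) :
    0 < ∫ t in (0:ℝ)..1, (P t) ^ 2 := by
  obtain ⟨t0, ht0, hpos⟩ := hPne
  exact intervalIntegral.integral_pos zero_lt_one (hPc.pow 2)
    (fun x hx => pow_nonneg (hP0 x ⟨hx.1.le, hx.2⟩) 2) ⟨t0, ht0, pow_pos hpos 2⟩

/-- The algebraic identity behind the ratio. -/
theorem sq_geoc_alg (k V M1 M2 Q : ℝ) (hk : 0 < k) (hV : 0 < V) :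
    ((4 * (k * V) * (4 * (k * M2)) - (4 * (k * M1)) ^ 2) * (4 / 3 * (k * Q)) *
        (4 / 3 * (k ^ 3 * Q))) / (4 * (k * V)) ^ 6 =
      Q ^ 2 * (V * M2 - M1 ^ 2) / (144 * V ^ 6) := by
  have hk' : k ≠ 0 := hk.ne'
  have hV' : V ≠ 0 := hV.ne'
  field_simp
  ring

theorem sqBody_ratio (k : ℝ) (hk : 0 < k) (P : ℝ → ℝ) (hP : ConcaveOn ℝ (Icc 0 1) P)
    (hPc : ContinuousOn P (Icc 0 1)) (hP0 : ∀ t ∈ Icc (0:ℝ) 1, 0 ≤ P t)
    (hPne : ∃ t ∈ Icc (0:ℝ) 1, 0 < P t) :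
    (covMatrix (sqBody k P)).det / (vol (sqBody k P)) ^ 2 =
      (∫ t in (0:ℝ)..1, (P t) ^ 4) ^ 2 *
        ((∫ t in (0:ℝ)..1, (P t) ^ 2) * (∫ t in (0:ℝ)..1, t ^ 2 * (P t) ^ 2)
          - (∫ t in (0:ℝ)..1, t * (P t) ^ 2) ^ 2) /
        (144 * (∫ t in (0:ℝ)..1, (P t) ^ 2) ^ 6) := by
  rw [sqBody_eq]
  have hR : ConcaveOn ℝ (Icc 0 1) (fun t => k * P t) := hP.smul hk.le
  have hRc : ContinuousOn (fun t => k * P t) (Icc 0 1) := continuousOn_const.mul hPc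
  have hR0 : ∀ t ∈ Icc (0:ℝ) 1, 0 ≤ k * P t := fun t ht => mul_nonneg hk.le (hP0 t ht)
  have hRne : ∃ t ∈ Icc (0:ℝ) 1, 0 < k * P t := by
    obtain ⟨t0, ht0, hpos⟩ := hPne
    exact ⟨t0, ht0, mul_pos hk hpos⟩
  have hKc : IsCompact (wedgeP P (fun t => k * P t)) := wedgeP_isCompact hPc hRc
  have hi : (interior (wedgeP P (fun t => k * P t))).Nonempty :=
    wedgeP_interior hP hR hPc hRc hP0 hR0 hPne hRne
  rw [two_flip0_ratio_eq hKc hi wedgeP_flip1 wedgeP_flip2]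
  have e1 : (∫ t in (0:ℝ)..1, P t * (k * P t)) = k * ∫ t in (0:ℝ)..1, (P t) ^ 2 := by
    rw [← intervalIntegral.integral_const_mul]
    refine intervalIntegral.integral_congr (fun t _ => ?_)
    ring
  have e2 : (∫ t in (0:ℝ)..1, t * (P t * (k * P t))) =
      k * ∫ t in (0:ℝ)..1, t * (P t) ^ 2 := by
    rw [← intervalIntegral.integral_const_mul]
    refine intervalIntegral.integral_congr (fun t _ => ?_)
    ring
  have e3 : (∫ t in (0:ℝ)..1, t ^ 2 * (P t * (k * P t))) =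
      k * ∫ t in (0:ℝ)..1, t ^ 2 * (P t) ^ 2 := by
    rw [← intervalIntegral.integral_const_mul]
    refine intervalIntegral.integral_congr (fun t _ => ?_)
    ring
  have e4 : (∫ t in (0:ℝ)..1, (P t) ^ 3 * (k * P t)) =
      k * ∫ t in (0:ℝ)..1, (P t) ^ 4 := by
    rw [← intervalIntegral.integral_const_mul]
    refine intervalIntegral.integral_congr (fun t _ => ?_)
    ring
  have e5 : (∫ t in (0:ℝ)..1, P t * (k * P t) ^ 3) =
      k ^ 3 * ∫ t in (0:ℝ)..1, (P t) ^ 4 := by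
    rw [← intervalIntegral.integral_const_mul]
    refine intervalIntegral.integral_congr (fun t _ => ?_)
    ring
  have hvol : vol (wedgeP P (fun t => k * P t)) = 4 * (k * ∫ t in (0:ℝ)..1, (P t) ^ 2) := by
    rw [vol_slice hKc, wedgeP_int_vol hP0 hR0, e1]
  have hmom : (∫ x in wedgeP P (fun t => k * P t), x 0) =
      4 * (k * ∫ t in (0:ℝ)..1, t * (P t) ^ 2) := by
    rw [Two.moment0_slice hKc, wedgeP_int_t_vol hP0 hR0, e2]
  have hsq : (∫ x in wedgeP P (fun t => k * P t), (x 0) ^ 2) =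
      4 * (k * ∫ t in (0:ℝ)..1, t ^ 2 * (P t) ^ 2) := by
    have h : (∫ x in wedgeP P (fun t => k * P t), (x 0) ^ 2) =
        ∫ t, t ^ 2 * vol (sec (wedgeP P (fun t => k * P t)) t) := m2_zero_slice hKc
    rw [h, wedgeP_int_t2_vol hP0 hR0, e3]
  have hm1 : m2 (wedgeP P (fun t => k * P t)) 1 =
      4 / 3 * (k * ∫ t in (0:ℝ)..1, (P t) ^ 4) := by
    rw [wedgeP_m2_1 hPc hRc hP0 hR0, e4]
  have hm2 : m2 (wedgeP P (fun t => k * P t)) 2 =
      4 / 3 * (k ^ 3 * ∫ t in (0:ℝ)..1, (P t) ^ 4) := by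
    rw [wedgeP_m2_2 hPc hRc hP0 hR0, e5]
  rw [hvol, hmom, hsq, hm1, hm2]
  exact sq_geoc_alg k _ _ _ _ hk (sq_geoc_int_pos hPc hP0 hPne)

theorem sqBody_int_pos {P : ℝ → ℝ} (hPc : ContinuousOn P (Icc 0 1))
    (hP0 : ∀ t ∈ Icc (0:ℝ) 1, 0 ≤ P t) (hPne : ∃ t ∈ Icc (0:ℝ) 1, 0 < P t) :
    0 < ∫ t in (0:ℝ)..1, (P t) ^ 2 :=
  sq_geoc_int_pos hPc hP0 hPne

end GEOC

/-! ### FINAL : the class -/

section FINAL

theorem sqBody_convexBody_isotropic_lt (k : ℝ) (hk : 0 < k) (P : ℝ → ℝ)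
    (hP : ConcaveOn ℝ (Icc 0 1) P) (hPc : ContinuousOn P (Icc 0 1))
    (hP0 : ∀ t ∈ Icc (0:ℝ) 1, 0 ≤ P t) (hPne : ∃ t ∈ Icc (0:ℝ) 1, 0 < P t)
    (T : Fin 4 → Fin 3 → ℝ) (hT : AffineIndependent ℝ T) :
    IsCompact (sqBody k P) ∧ Convex ℝ (sqBody k P) ∧ (interior (sqBody k P)).Nonempty ∧
      isotropicConstant (sqBody k P) < isotropicConstant (convexHull ℝ (Set.range T)) := by
  have hR : ConcaveOn ℝ (Icc 0 1) (fun t => k * P t) := by
    refine ⟨convex_Icc 0 1, fun x hx y hy a b ha hb hab => ?_⟩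
    have h := hP.2 hx hy ha hb hab
    simp only [smul_eq_mul] at h ⊢
    have h2 := mul_le_mul_of_nonneg_left h hk.le
    calc a * (k * P x) + b * (k * P y) = k * (a * P x + b * P y) := by ring
      _ ≤ k * P (a * x + b * y) := h2
  have hRc : ContinuousOn (fun t => k * P t) (Icc 0 1) := continuousOn_const.mul hPc
  have hR0 : ∀ t ∈ Icc (0:ℝ) 1, 0 ≤ k * P t := fun t ht => mul_nonneg hk.le (hP0 t ht)
  have hRne : ∃ t ∈ Icc (0:ℝ) 1, 0 < k * P t := by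
    obtain ⟨t, ht, hpt⟩ := hPne
    exact ⟨t, ht, mul_pos hk hpt⟩
  have hK : IsCompact (sqBody k P) := by
    rw [sqBody_eq]
    exact wedgeP_isCompact hPc hRc
  have hc : Convex ℝ (sqBody k P) := by
    rw [sqBody_eq]
    exact wedgeP_convex hP hR
  have hi : (interior (sqBody k P)).Nonempty := by
    rw [sqBody_eq]
    exact wedgeP_interior hP hR hPc hRc hP0 hR0 hPne hRne
  refine ⟨hK, hc, hi, ?_⟩
  have h1 : ∀ x ∈ sqBody k P, Function.update x 1 (-(x 1)) ∈ sqBody k P := by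
    rw [sqBody_eq]
    exact wedgeP_flip1
  have h2 : ∀ x ∈ sqBody k P, Function.update x 2 (-(x 2)) ∈ sqBody k P := by
    rw [sqBody_eq]
    exact wedgeP_flip2
  have hnn := two_flip0_ratio_nonneg hK hi h1 h2
  have hV := sqBody_int_pos hPc hP0 hPne
  have hineq := sq_ineq P hP hPc hP0 hPne
  have hle : (covMatrix (sqBody k P)).det / (vol (sqBody k P)) ^ 2 ≤ 1 / 896 := by
    rw [sqBody_ratio k hk P hP hPc hP0 hPne,
      div_le_div_iff₀ (mul_pos (by norm_num) (pow_pos hV 6)) (by norm_num)]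
    linarith
  exact isotropic_lt_of_ratio (sqBody k P) hle hnn T hT

end FINAL

end Vale.Agent.Lib.P254.Sq
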