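import Vale.Agent.Lib.P254.Ramp.BodyP
import Vale.Agent.Lib.P254.Sym.PL1

/-!
P254, bodies with homothetic rectangular sections: definitions

For a profile `P` on `[0,1]`, `ext P` is its extension by zero to the line and
`corr P d = ∫ (ext P x)² (ext P (x + d))² dx` is the correlation function of the section area.
-/

open MeasureTheory Set

namespace Vale.Agent.Lib.P254.Sq

/-- The profile extended by zero outside `[0,1]`. -/
noncomputable def ext (P : ℝ → ℝ) (x : ℝ) : ℝ := (Icc (0:ℝ) 1).indicator P x

/-- The correlation function `d ↦ ∫ (ext P x)² (ext P (x + d))² dx`. -/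
noncomputable def corr (P : ℝ → ℝ) (d : ℝ) : ℝ := ∫ x, (ext P x) ^ 2 * (ext P (x + d)) ^ 2

end Vale.Agent.Lib.P254.Sq
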